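import Mathlib

/-!
P298, block S1-ABS (helper265): pointwise second order Taylor expansions of real
functions on the complex plane.  `HasLap g z0 L` means that `g` has a second order
Taylor expansion at `z0` whose `d dbar` coefficient is `L`.
-/

namespace Vale.Agent.P298.H265

open Complex ComplexConjugate Metric Set Filter Topology Asymptotics

theorem tendsto_add_zero (z0 : ℂ) : Tendsto (fun τ : ℂ => z0 + τ) (𝓝 0) (𝓝 z0) := by
  have h : Continuous fun τ : ℂ => z0 + τ := by fun_prop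
  have := h.tendsto 0
  rwa [add_zero] at this

/-- Second order Taylor expansion with explicit coefficients. -/
def HasJet (g : ℂ → ℝ) (z0 : ℂ) (a b : ℂ) (L : ℝ) : Prop :=
  (fun τ : ℂ => g (z0 + τ) - (g z0 + (a * τ).re + (b * τ ^ 2).re + L * ‖τ‖ ^ 2)) =o[𝓝 0]
    (fun τ => ‖τ‖ ^ 2)

/-- Second order Taylor expansion with `d dbar` coefficient `L`. -/
def HasLap (g : ℂ → ℝ) (z0 : ℂ) (L : ℝ) : Prop :=
  ∃ a b : ℂ, (fun τ : ℂ => g (z0 + τ) - (g z0 + (a * τ).re + (b * τ ^ 2).re + L * ‖τ‖ ^ 2))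
    =o[𝓝 0] (fun τ => ‖τ‖ ^ 2)

theorem HasJet.hasLap {g : ℂ → ℝ} {z0 a b : ℂ} {L : ℝ} (h : HasJet g z0 a b L) :
    HasLap g z0 L := ⟨a, b, h⟩

theorem HasJet.add {g h : ℂ → ℝ} {z0 a b a' b' : ℂ} {L L' : ℝ} (hg : HasJet g z0 a b L)
    (hh : HasJet h z0 a' b' L') : HasJet (fun z => g z + h z) z0 (a + a') (b + b') (L + L') := by
  refine (IsLittleO.add hg hh).congr_left fun τ => ?_
  simp only [add_mul, add_re]
  ring

theorem HasJet.const_mul {g : ℂ → ℝ} {z0 a b : ℂ} {L : ℝ} (hg : HasJet g z0 a b L) (c : ℝ) :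
    HasJet (fun z => c * g z) z0 (c * a) (c * b) (c * L) := by
  refine (IsLittleO.const_mul_left hg c).congr_left fun τ => ?_
  simp only [mul_assoc, re_ofReal_mul]
  ring

theorem HasJet.neg {g : ℂ → ℝ} {z0 a b : ℂ} {L : ℝ} (hg : HasJet g z0 a b L) :
    HasJet (fun z => - g z) z0 (-a) (-b) (-L) := by
  refine (IsLittleO.neg_left hg).congr_left fun τ => ?_
  simp only [neg_mul, neg_re]
  ring

theorem hasJet_const (c : ℝ) (z0 : ℂ) : HasJet (fun _ => c) z0 0 0 0 := by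
  refine (isLittleO_zero _ _).congr_left fun τ => ?_
  simp

theorem HasJet.congr {g h : ℂ → ℝ} {z0 a b : ℂ} {L : ℝ} (hg : HasJet g z0 a b L)
    (e : ∀ᶠ z in 𝓝 z0, g z = h z) : HasJet h z0 a b L := by
  have e0 : g z0 = h z0 := e.self_of_nhds
  have e' : ∀ᶠ τ in 𝓝 (0 : ℂ), g (z0 + τ) = h (z0 + τ) := by
    exact (tendsto_add_zero z0).eventually e
  refine IsLittleO.congr' hg ?_ (Eventually.of_forall fun _ => rfl)
  filter_upwards [e'] with τ h1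
  rw [h1, e0]

theorem HasLap.add {g h : ℂ → ℝ} {z0 : ℂ} {L L' : ℝ} (hg : HasLap g z0 L)
    (hh : HasLap h z0 L') : HasLap (fun z => g z + h z) z0 (L + L') := by
  obtain ⟨a, b, h1⟩ := hg
  obtain ⟨a', b', h2⟩ := hh
  exact ⟨_, _, HasJet.add h1 h2⟩

theorem HasLap.const_mul {g : ℂ → ℝ} {z0 : ℂ} {L : ℝ} (hg : HasLap g z0 L) (c : ℝ) :
    HasLap (fun z => c * g z) z0 (c * L) := by
  obtain ⟨a, b, h1⟩ := hg
  exact ⟨_, _, HasJet.const_mul h1 c⟩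

theorem HasLap.neg {g : ℂ → ℝ} {z0 : ℂ} {L : ℝ} (hg : HasLap g z0 L) :
    HasLap (fun z => - g z) z0 (-L) := by
  obtain ⟨a, b, h1⟩ := hg
  exact ⟨_, _, HasJet.neg h1⟩

theorem HasLap.sub {g h : ℂ → ℝ} {z0 : ℂ} {L L' : ℝ} (hg : HasLap g z0 L)
    (hh : HasLap h z0 L') : HasLap (fun z => g z - h z) z0 (L - L') := by
  simpa [sub_eq_add_neg] using hg.add hh.neg

theorem hasLap_const (c : ℝ) (z0 : ℂ) : HasLap (fun _ => c) z0 0 := (hasJet_const c z0).hasLap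

theorem HasLap.congr {g h : ℂ → ℝ} {z0 : ℂ} {L : ℝ} (hg : HasLap g z0 L)
    (e : ∀ᶠ z in 𝓝 z0, g z = h z) : HasLap h z0 L := by
  obtain ⟨a, b, h1⟩ := hg
  exact ⟨a, b, HasJet.congr h1 e⟩

theorem HasLap.sum {ι : Type*} {s : Finset ι} {g : ι → ℂ → ℝ} {z0 : ℂ} {L : ι → ℝ}
    (hg : ∀ i ∈ s, HasLap (g i) z0 (L i)) : HasLap (fun z => ∑ i ∈ s, g i z) z0 (∑ i ∈ s, L i) := by
  classical
  induction s using Finset.induction_on with
  | empty => simpa using hasLap_const 0 z0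
  | insert a s ha ih =>
    simp only [Finset.sum_insert ha]
    exact (hg a (Finset.mem_insert_self _ _)).add
      (ih fun i hi => hg i (Finset.mem_insert_of_mem hi))

/-- The maximum principle at a point. -/
theorem HasLap.nonpos_of_isLocalMax {g : ℂ → ℝ} {z0 : ℂ} {L : ℝ} (hg : HasLap g z0 L)
    (hmax : ∀ᶠ z in 𝓝 z0, g z ≤ g z0) : L ≤ 0 := by
  obtain ⟨a, b, h⟩ := hg
  by_contra hL
  push Not at hL
  have h1 := h.def (c := L / 2) (by positivity)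
  have e' : ∀ᶠ τ in 𝓝 (0 : ℂ), g (z0 + τ) ≤ g z0 := by
    exact (tendsto_add_zero z0).eventually hmax
  have h2 := h1.and e'
  obtain ⟨ε, hε, h3⟩ := Metric.eventually_nhds_iff.1 h2
  have key : ∀ τ : ℂ, ‖τ‖ = ε / 2 →
      (a * τ).re + (b * τ ^ 2).re + L * (ε / 2) ^ 2 ≤ L / 2 * (ε / 2) ^ 2 := by
    intro τ hτ
    have := h3 (y := τ) (by rw [dist_zero_right, hτ]; linarith)
    obtain ⟨h4, h5⟩ := this
    rw [hτ, Real.norm_eq_abs, Real.norm_eq_abs] at h4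
    have h6 := (abs_le.1 h4).1
    rw [abs_of_nonneg (by positivity : (0 : ℝ) ≤ (ε / 2) ^ 2)] at h6
    linarith
  have n1 : ‖((ε / 2 : ℝ) : ℂ)‖ = ε / 2 := by
    rw [Complex.norm_real, Real.norm_eq_abs, abs_of_pos (by linarith)]
  have k1 := key ((ε / 2 : ℝ) : ℂ) n1
  have k2 := key (-((ε / 2 : ℝ) : ℂ)) (by rw [norm_neg, n1])
  have k3 := key (I * ((ε / 2 : ℝ) : ℂ)) (by rw [norm_mul, Complex.norm_I, one_mul, n1])
  have k4 := key (-(I * ((ε / 2 : ℝ) : ℂ))) (by rw [norm_neg, norm_mul, Complex.norm_I, one_mul, n1])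
  have e1 : (a * (-((ε / 2 : ℝ) : ℂ))).re = - (a * ((ε / 2 : ℝ) : ℂ)).re := by simp
  have e2 : (a * (-(I * ((ε / 2 : ℝ) : ℂ)))).re = - (a * (I * ((ε / 2 : ℝ) : ℂ))).re := by simp
  have e3 : (b * (I * ((ε / 2 : ℝ) : ℂ)) ^ 2).re = - (b * ((ε / 2 : ℝ) : ℂ) ^ 2).re := by
    rw [mul_pow, I_sq]; simp
  rw [neg_sq] at k2 k4
  rw [e1] at k2
  rw [e2] at k4
  rw [e3] at k3 k4
  nlinarith [sq_nonneg (ε / 2), pow_pos (half_pos hε) 2, mul_pos hL (pow_pos (half_pos hε) 2)]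

/-- Vector valued second order expansion of an analytic function. -/
theorem analytic_taylor {E : Type*} [NormedAddCommGroup E] [NormedSpace ℂ E] {f : ℂ → E} {z0 : ℂ}
    (hf : AnalyticAt ℂ f z0) : ∃ f2 : E,
    (fun τ : ℂ => f (z0 + τ) - (f z0 + τ • deriv f z0 + τ ^ 2 • f2)) =O[𝓝 0]
      (fun τ => ‖τ‖ ^ 3) := by
  obtain ⟨p, hp⟩ := hf
  refine ⟨p.coeff 2, ?_⟩
  have h := hp.isBigO_sub_partialSum_pow 3
  refine h.congr_left fun τ => ?_
  congr 1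
  rw [FormalMultilinearSeries.partialSum]
  simp only [Finset.sum_range_succ, Finset.range_zero, Finset.sum_empty,
    FormalMultilinearSeries.apply_eq_pow_smul_coeff]
  have h0 : p.coeff 0 = f z0 := hp.coeff_zero _
  have h1 : p.coeff 1 = deriv f z0 := by
    rw [hp.deriv]; rfl
  rw [h0, h1]
  simp

theorem hasJet_of_isBigO {g : ℂ → ℝ} {z0 a b : ℂ} {L : ℝ}
    (h : (fun τ : ℂ => g (z0 + τ) - (g z0 + (a * τ).re + (b * τ ^ 2).re + L * ‖τ‖ ^ 2)) =O[𝓝 0]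
      (fun τ => ‖τ‖ ^ 3)) : HasJet g z0 a b L := by
  refine h.trans_isLittleO ?_
  have : (fun τ : ℂ => ‖τ‖ ^ 3) =o[𝓝 0] fun τ : ℂ => ‖τ‖ ^ 2 := by
    have := (isLittleO_pow_pow (𝕜 := ℝ) (m := 2) (n := 3) (by norm_num)).comp_tendsto
      (tendsto_norm_zero (E := ℂ))
    exact this
  exact this

theorem hasJet_re_analytic {f : ℂ → ℂ} {z0 : ℂ} (hf : AnalyticAt ℂ f z0) :
    ∃ b, HasJet (fun z => (f z).re) z0 (deriv f z0) b 0 := by
  obtain ⟨f2, h⟩ := analytic_taylor hf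
  refine ⟨f2, hasJet_of_isBigO ?_⟩
  refine IsBigO.trans (IsBigO.of_bound 1 (Eventually.of_forall fun τ => ?_)) h
  rw [one_mul]
  have : (f (z0 + τ)).re - ((f z0).re + (deriv f z0 * τ).re + (f2 * τ ^ 2).re + 0 * ‖τ‖ ^ 2) =
      (f (z0 + τ) - (f z0 + τ • deriv f z0 + τ ^ 2 • f2)).re := by
    simp only [smul_eq_mul, sub_re, add_re]
    rw [mul_comm τ, mul_comm (τ ^ 2)]
    ring
  rw [this]
  exact Complex.abs_re_le_norm _

theorem hasLap_re_analytic {f : ℂ → ℂ} {z0 : ℂ} (hf : AnalyticAt ℂ f z0) :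
    HasLap (fun z => (f z).re) z0 0 := by
  obtain ⟨b, h⟩ := hasJet_re_analytic hf
  exact h.hasLap

/-- `log |F|` is harmonic. -/
theorem hasLap_log_norm {F : ℂ → ℂ} {z0 : ℂ} (hF : AnalyticAt ℂ F z0) (h0 : F z0 ≠ 0) :
    HasLap (fun z => Real.log ‖F z‖) z0 0 := by
  have h1 : AnalyticAt ℂ (fun z => Complex.log (F z / F z0)) z0 := by
    refine AnalyticAt.clog (hF.div_const) ?_
    rw [div_self h0]
    exact one_mem_slitPlane
  have h2 := (hasLap_re_analytic h1).add (hasLap_const (Real.log ‖F z0‖) z0)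
  rw [add_zero] at h2
  refine h2.congr ?_
  have : ∀ᶠ z in 𝓝 z0, F z ≠ 0 := hF.continuousAt.eventually_ne h0
  filter_upwards [this] with z hz
  rw [Complex.log_re, norm_div, Real.log_div (norm_ne_zero_iff.2 hz) (norm_ne_zero_iff.2 h0)]
  ring

theorem hasLap_log_norm_sub (z1 : ℂ) {z0 : ℂ} (h : z0 ≠ z1) :
    HasLap (fun z => Real.log ‖z - z1‖) z0 0 :=
  hasLap_log_norm (F := fun z => z - z1) (by fun_prop) (sub_ne_zero.2 h)

theorem norm_add_sq (u v : ℂ) : ‖u + v‖ ^ 2 = ‖u‖ ^ 2 + 2 * (conj u * v).re + ‖v‖ ^ 2 := by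
  rw [← Complex.normSq_eq_norm_sq, ← Complex.normSq_eq_norm_sq, ← Complex.normSq_eq_norm_sq,
    Complex.normSq_apply, Complex.normSq_apply, Complex.normSq_apply]
  simp only [add_re, add_im, mul_re, conj_re, conj_im]
  ring

theorem hasJet_normSq (c z0 : ℂ) :
    HasJet (fun z => ‖z - c‖ ^ 2) z0 (2 * conj (z0 - c)) 0 1 := by
  refine (isLittleO_zero _ _).congr_left fun τ => ?_
  have : z0 + τ - c = (z0 - c) + τ := by ring
  show (0 : ℝ) = ‖z0 + τ - c‖ ^ 2 - (‖z0 - c‖ ^ 2 + (2 * conj (z0 - c) * τ).re +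
    (0 * τ ^ 2).re + 1 * ‖τ‖ ^ 2)
  rw [this, norm_add_sq (z0 - c) τ]
  simp only [mul_assoc, zero_mul, zero_re]
  have : (2 * (conj (z0 - c) * τ)).re = 2 * (conj (z0 - c) * τ).re := by
    simp
  rw [this]
  ring

theorem hasLap_normSq (c z0 : ℂ) : HasLap (fun z => ‖z - c‖ ^ 2) z0 1 :=
  (hasJet_normSq c z0).hasLap

theorem isBigO_re_mul (a : ℂ) : (fun τ : ℂ => (a * τ).re) =O[𝓝 0] fun τ : ℂ => ‖τ‖ := by
  refine IsBigO.of_bound ‖a‖ (Eventually.of_forall fun τ => ?_)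
  rw [Real.norm_eq_abs, Real.norm_eq_abs, abs_norm, ← norm_mul]
  exact Complex.abs_re_le_norm _

theorem isBigO_re_mul_sq (b : ℂ) : (fun τ : ℂ => (b * τ ^ 2).re) =O[𝓝 0]
    fun τ : ℂ => ‖τ‖ ^ 2 := by
  refine IsBigO.of_bound ‖b‖ (Eventually.of_forall fun τ => ?_)
  have h : ‖(‖τ‖ ^ 2 : ℝ)‖ = ‖τ ^ 2‖ := by
    rw [norm_pow τ 2, Real.norm_eq_abs, abs_of_nonneg (by positivity)]
  rw [h, ← norm_mul]
  exact Complex.abs_re_le_norm _

theorem pow_isLittleO {m n : ℕ} (h : m < n) :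
    (fun τ : ℂ => ‖τ‖ ^ n) =o[𝓝 0] fun τ : ℂ => ‖τ‖ ^ m :=
  (isLittleO_pow_pow (𝕜 := ℝ) (m := m) (n := n) h).comp_tendsto (tendsto_norm_zero (E := ℂ))

theorem pow_isBigO {m n : ℕ} (h : m ≤ n) :
    (fun τ : ℂ => ‖τ‖ ^ n) =O[𝓝 0] fun τ : ℂ => ‖τ‖ ^ m := by
  rcases h.lt_or_eq with h | h
  · exact (pow_isLittleO h).isBigO
  · subst h; exact isBigO_refl _ _

theorem HasJet.isBigO {g : ℂ → ℝ} {z0 a b : ℂ} {L : ℝ} (hg : HasJet g z0 a b L) :
    (fun τ : ℂ => g (z0 + τ) - (g z0 + (a * τ).re)) =O[𝓝 0] fun τ => ‖τ‖ ^ 2 := by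
  have h1 : (fun τ : ℂ => (b * τ ^ 2).re + L * ‖τ‖ ^ 2) =O[𝓝 0] fun τ : ℂ => ‖τ‖ ^ 2 :=
    (isBigO_re_mul_sq b).add ((isBigO_refl _ _).const_mul_left L)
  refine ((IsLittleO.isBigO hg).add h1).congr_left fun τ => ?_
  ring

theorem HasJet.isBigO_one {g : ℂ → ℝ} {z0 a b : ℂ} {L : ℝ} (hg : HasJet g z0 a b L) :
    (fun τ : ℂ => g (z0 + τ) - g z0) =O[𝓝 0] fun τ => ‖τ‖ := by
  have h0 : (fun τ : ℂ => ‖τ‖ ^ 2) =O[𝓝 0] fun τ : ℂ => ‖τ‖ := by
    simpa using pow_isBigO (m := 1) (n := 2) (by norm_num)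
  refine ((hg.isBigO.trans h0).add (isBigO_re_mul a)).congr_left fun τ => ?_
  ring

theorem sq_re (w : ℂ) : w.re ^ 2 = (‖w‖ ^ 2 + (w ^ 2).re) / 2 := by
  rw [← Complex.normSq_eq_norm_sq, Complex.normSq_apply, pow_two w, mul_re]
  ring

/-- Logarithm of a positive function with a second order expansion. -/
theorem HasJet.log {g : ℂ → ℝ} {z0 a b : ℂ} {L : ℝ} (hg : HasJet g z0 a b L)
    (h0 : 0 < g z0) :
    HasJet (fun z => Real.log (g z)) z0 ((1 / g z0 : ℝ) * a)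
      ((1 / g z0 : ℝ) * b - (1 / (4 * g z0 ^ 2) : ℝ) * a ^ 2)
      (L / g z0 - ‖a‖ ^ 2 / (4 * g z0 ^ 2)) := by
  set G := g z0 with hG
  set e : ℂ → ℝ := fun τ => (g (z0 + τ) - G) / G with he
  have he1 : e =O[𝓝 0] fun τ => ‖τ‖ := by
    refine (hg.isBigO_one.const_mul_left (1 / G)).congr_left fun τ => ?_
    rw [he]; ring
  have he0 : Tendsto e (𝓝 0) (𝓝 0) := by
    refine he1.trans_tendsto ?_
    exact tendsto_norm_zero (E := ℂ)
  -- first piece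
  have p1 : (fun τ : ℂ => Real.log (g (z0 + τ)) - Real.log G - (e τ - e τ ^ 2 / 2)) =O[𝓝 0]
      fun τ => ‖τ‖ ^ 3 := by
    refine IsBigO.trans (g := fun τ => e τ ^ 3) ?_ (he1.pow 3)
    have hs : ∀ᶠ τ in 𝓝 (0 : ℂ), |e τ| < 1 / 2 := by
      have := he0.eventually (Metric.ball_mem_nhds (0 : ℝ) (by norm_num : (0 : ℝ) < 1 / 2))
      filter_upwards [this] with τ hτ
      simpa [Real.dist_eq] using hτ
    refine IsBigO.of_bound 2 ?_
    filter_upwards [hs] with τ hτ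
    have h1 := Real.abs_log_sub_add_sum_range_le (x := - e τ) (by rw [abs_neg]; linarith) 2
    have h2 : g (z0 + τ) = G * (1 - - e τ) := by
      rw [he]; field_simp; ring
    have hpos : 0 < 1 - - e τ := by
      have := (abs_lt.1 hτ).1; linarith
    rw [h2, Real.log_mul h0.ne' hpos.ne']
    have h3 : Real.log G + Real.log (1 - - e τ) - Real.log G - (e τ - e τ ^ 2 / 2) =
        (∑ i ∈ Finset.range 2, (- e τ) ^ (i + 1) / ((i : ℝ) + 1)) + Real.log (1 - - e τ) := by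
      simp [Finset.sum_range_succ]
      ring
    rw [h3, Real.norm_eq_abs]
    refine h1.trans ?_
    rw [abs_neg, Real.norm_eq_abs, abs_pow]
    rw [div_le_iff₀ (by linarith)]
    have h4 : 0 ≤ |e τ| ^ 3 := by positivity
    have h5 := mul_nonneg h4 (by linarith : 0 ≤ 1 - 2 * |e τ|)
    norm_num
    nlinarith
  -- second piece
  have p2 : (fun τ : ℂ => e τ - (1 / G) * ((a * τ).re + (b * τ ^ 2).re + L * ‖τ‖ ^ 2)) =o[𝓝 0]
      fun τ => ‖τ‖ ^ 2 := by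
    refine (IsLittleO.const_mul_left hg (1 / G)).congr_left fun τ => ?_
    rw [he]; field_simp; ring
  -- third piece
  have p3 : (fun τ : ℂ => e τ ^ 2 - ((1 / G) * (a * τ).re) ^ 2) =O[𝓝 0] fun τ => ‖τ‖ ^ 3 := by
    have q1 : (fun τ : ℂ => e τ - (1 / G) * (a * τ).re) =O[𝓝 0] fun τ => ‖τ‖ ^ 2 := by
      refine (hg.isBigO.const_mul_left (1 / G)).congr_left fun τ => ?_
      rw [he]; field_simp; ring
    have q2 : (fun τ : ℂ => e τ + (1 / G) * (a * τ).re) =O[𝓝 0] fun τ => ‖τ‖ :=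
      he1.add ((isBigO_re_mul a).const_mul_left _)
    refine (q1.mul q2).congr (fun τ => ?_) (fun τ => ?_)
    · ring
    · ring
  have p3' := p3.trans_isLittleO (pow_isLittleO (m := 2) (n := 3) (by norm_num))
  have p1' := p1.trans_isLittleO (pow_isLittleO (m := 2) (n := 3) (by norm_num))
  refine ((p1'.add p2).sub (p3'.const_mul_left (1 / 2))).congr_left fun τ => ?_
  have r1 : (((1 / G : ℝ) : ℂ) * a * τ).re = (1 / G) * (a * τ).re := by
    rw [mul_assoc, re_ofReal_mul]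
  have r2 : ((((1 / G : ℝ) : ℂ) * b - ((1 / (4 * G ^ 2) : ℝ) : ℂ) * a ^ 2) * τ ^ 2).re =
      (1 / G) * (b * τ ^ 2).re - (1 / (4 * G ^ 2)) * ((a * τ) ^ 2).re := by
    rw [sub_mul, sub_re, mul_assoc, re_ofReal_mul, mul_assoc, re_ofReal_mul, mul_pow]
  rw [r1, r2]
  have r3 : ((a * τ) ^ 2).re = 2 * (a * τ).re ^ 2 - ‖a‖ ^ 2 * ‖τ‖ ^ 2 := by
    have := sq_re (a * τ)
    rw [norm_mul, mul_pow] at this
    linarith
  rw [r3]
  field_simp
  ring

theorem HasJet.log_zero {g : ℂ → ℝ} {z0 b : ℂ} {L : ℝ} (hg : HasJet g z0 0 b L)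
    (h0 : 0 < g z0) : HasLap (fun z => Real.log (g z)) z0 (L / g z0) := by
  have := (hg.log h0).hasLap
  simpa using this

/-- The Poincare potential. -/
theorem hasLap_log_sub_normSq {c z0 : ℂ} {R : ℝ} (h : ‖z0 - c‖ < R) :
    HasLap (fun z => Real.log (R ^ 2 - ‖z - c‖ ^ 2)) z0
      (-(R ^ 2 / (R ^ 2 - ‖z0 - c‖ ^ 2) ^ 2)) := by
  have h1 := (hasJet_const (R ^ 2) z0).add (hasJet_normSq c z0).neg
  have hpos : 0 < R ^ 2 - ‖z0 - c‖ ^ 2 := by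
    have := norm_nonneg (z0 - c)
    nlinarith
  have h2 := (HasJet.log h1 (by simpa [sub_eq_add_neg] using hpos)).hasLap
  refine (HasLap.congr ?_ (Eventually.of_forall fun z => rfl) :
    HasLap (fun z => Real.log (R ^ 2 + - ‖z - c‖ ^ 2)) z0 _)
  convert h2 using 1
  have : ‖(0 : ℂ) + -(2 * conj (z0 - c))‖ ^ 2 = 4 * ‖z0 - c‖ ^ 2 := by
    rw [zero_add, norm_neg, norm_mul, Complex.norm_conj, mul_pow]
    norm_num
  rw [this]
  have e : R ^ 2 + - ‖z0 - c‖ ^ 2 = R ^ 2 - ‖z0 - c‖ ^ 2 := by ring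
  rw [e]
  field_simp
  ring

end Vale.Agent.P298.H265
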