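import Vale.Agent.P298.H265.Conn
import Vale.Agent.P298.H265.Jet

/-!
P298, block S1-ABS (helper265): linear algebra of a hermitian form and of positive frames.
-/

namespace Vale.Agent.P298.H265

open Complex ComplexConjugate Metric Set Filter Topology Asymptotics

variable {M : Type*} [AddCommGroup M] [Module ℂ M]

section Algebra

variable (B : M →ₗ[ℂ] M →ₗ⋆[ℂ] ℂ)

theorem B_smul_right (c : ℂ) (a b : M) : B a (c • b) = conj c * B a b := by
  rw [LinearMap.map_smulₛₗ]; rfl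

theorem B_smul_left (c : ℂ) (a b : M) : B (c • a) b = c * B a b := by
  simp

theorem B_sum_right {p : ℕ} (c : Fin p → ℂ) (e : Fin p → M) (a : M) :
    B a (∑ k, c k • e k) = ∑ k, conj (c k) * B a (e k) := by
  rw [map_sum]
  exact Finset.sum_congr rfl fun k _ => B_smul_right B _ _ _

theorem B_sum_left {p : ℕ} (c : Fin p → ℂ) (e : Fin p → M) (a : M) :
    B (∑ k, c k • e k) a = ∑ k, c k * B (e k) a := by
  rw [map_sum, LinearMap.sum_apply]
  exact Finset.sum_congr rfl fun k _ => B_smul_left B _ _ _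

/-- A real discriminant lemma. -/
theorem real_cs {A B n : ℝ} (hA : 0 ≤ A) (hB : 0 ≤ B) (hn : 0 ≤ n)
    (h : ∀ s : ℝ, 0 ≤ A + 2 * s * n + s ^ 2 * n * B) : n ≤ A * B := by
  rcases hn.eq_or_lt with h0 | h0
  · rw [← h0]; positivity
  rcases hB.eq_or_lt with h1 | h1
  · exfalso
    have := h (-(A + 1) / n)
    rw [← h1] at this
    have e : A + 2 * (-(A + 1) / n) * n + (-(A + 1) / n) ^ 2 * n * 0 = - A - 2 := by
      field_simp; ring
    rw [e] at this
    linarith
  · have := h (-1 / B)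
    have e : A + 2 * (-1 / B) * n + (-1 / B) ^ 2 * n * B = A - n / B := by
      field_simp; ring
    rw [e] at this
    have h2 : n / B ≤ A := by linarith
    rwa [div_le_iff₀ h1] at h2

variable {B}

theorem im_self (hB : ∀ a b, B a b = conj (B b a)) (a : M) : (B a a).im = 0 := by
  have := congrArg Complex.im (hB a a)
  rw [conj_im] at this
  linarith

theorem quad_expand (hB : ∀ a b, B a b = conj (B b a)) (a b : M) (s : ℝ) :
    (B (a + ((s : ℂ) * B a b) • b) (a + ((s : ℂ) * B a b) • b)).re =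
      (B a a).re + 2 * s * ‖B a b‖ ^ 2 + s ^ 2 * ‖B a b‖ ^ 2 * (B b b).re := by
  have hb := im_self hB b
  have hba : B b a = conj (B a b) := hB b a
  rw [map_add, map_add, LinearMap.add_apply, LinearMap.add_apply,
    B_smul_right, B_smul_left, B_smul_left, B_smul_right, hba]
  rw [← Complex.normSq_eq_norm_sq, Complex.normSq_apply]
  simp only [map_mul, conj_ofReal, add_re, mul_re, mul_im, conj_re, conj_im, ofReal_re, ofReal_im,
    hb]
  ring

/-- Cauchy-Schwarz on a negative semidefinite plane. -/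
theorem cs_neg (hB : ∀ a b, B a b = conj (B b a)) {a b : M}
    (h : ∀ c : ℂ, (B (a + c • b) (a + c • b)).re ≤ 0) (hb : (B b b).re ≤ 0) :
    ‖B a b‖ ^ 2 ≤ (-(B a a).re) * (-(B b b).re) := by
  refine real_cs ?_ (by linarith) (by positivity) fun s => ?_
  · have := h 0
    simp only [zero_smul, add_zero] at this
    linarith
  · have := h ((( -s : ℝ) : ℂ) * B a b)
    rw [quad_expand hB a b (-s)] at this
    nlinarith

/-- Cauchy-Schwarz on a positive semidefinite plane. -/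
theorem cs_pos (hB : ∀ a b, B a b = conj (B b a)) {a b : M}
    (h : ∀ c : ℂ, 0 ≤ (B (a + c • b) (a + c • b)).re) (hb : 0 ≤ (B b b).re) :
    ‖B a b‖ ^ 2 ≤ (B a a).re * (B b b).re := by
  refine real_cs ?_ hb (by positivity) fun s => ?_
  · have := h 0
    simp only [zero_smul, add_zero] at this
    linarith
  · have := h (((s : ℝ) : ℂ) * B a b)
    rw [quad_expand hB a b s] at this
    linarith

/-- Riesz for a positive frame. -/
theorem exists_dual {p : ℕ} {e : Fin p → M}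
    (hpos : ∀ c : Fin p → ℂ, c ≠ 0 → 0 < (B (∑ i, c i • e i) (∑ i, c i • e i)).re)
    (r : Fin p → ℂ) : ∃ c : Fin p → ℂ, ∀ i, B (∑ k, c k • e k) (e i) = r i := by
  let A : (Fin p → ℂ) →ₗ[ℂ] (Fin p → ℂ) :=
    { toFun := fun c i => B (∑ k, c k • e k) (e i)
      map_add' := by
        intro c d
        funext i
        simp only [Pi.add_apply, add_smul, Finset.sum_add_distrib, map_add,
          LinearMap.add_apply]
      map_smul' := by
        intro z c
        funext i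
        simp only [Pi.smul_apply, smul_eq_mul, RingHom.id_apply, B_sum_left, Finset.mul_sum,
          mul_assoc] }
  have hinj : Function.Injective A := by
    rw [← LinearMap.ker_eq_bot, LinearMap.ker_eq_bot']
    intro c hc
    by_contra hne
    have h1 := hpos c hne
    rw [B_sum_right] at h1
    have : ∀ i, B (∑ k, c k • e k) (e i) = 0 := fun i => congrFun hc i
    rw [Finset.sum_eq_zero fun i _ => by rw [this i, mul_zero], zero_re] at h1
    exact lt_irrefl _ h1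
  have hsurj := LinearMap.injective_iff_surjective.1 hinj
  obtain ⟨c, hc⟩ := hsurj r
  exact ⟨c, fun i => congrFun hc i⟩

theorem exists_proj {p : ℕ} {e : Fin p → M}
    (hpos : ∀ c : Fin p → ℂ, c ≠ 0 → 0 < (B (∑ i, c i • e i) (∑ i, c i • e i)).re)
    (a : M) : ∃ c : Fin p → ℂ, ∀ i, B (a - ∑ k, c k • e k) (e i) = 0 := by
  obtain ⟨c, hc⟩ := exists_dual hpos (fun i => B a (e i))
  refine ⟨c, fun i => ?_⟩
  rw [map_sub, LinearMap.sub_apply, hc i, sub_self]

theorem nonneg_of_pos {p : ℕ} {e : Fin p → M}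
    (hpos : ∀ c : Fin p → ℂ, c ≠ 0 → 0 < (B (∑ i, c i • e i) (∑ i, c i • e i)).re)
    (c : Fin p → ℂ) : 0 ≤ (B (∑ i, c i • e i) (∑ i, c i • e i)).re := by
  by_cases h : c = 0
  · subst h; simp
  · exact (hpos c h).le

/-- Cauchy-Schwarz in the span of a positive frame. -/
theorem cs_frame (hB : ∀ a b, B a b = conj (B b a)) {p : ℕ} {e : Fin p → M}
    (hpos : ∀ c : Fin p → ℂ, c ≠ 0 → 0 < (B (∑ i, c i • e i) (∑ i, c i • e i)).re)
    (c d : Fin p → ℂ) :
    ‖B (∑ i, c i • e i) (∑ i, d i • e i)‖ ^ 2 ≤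
      (B (∑ i, c i • e i) (∑ i, c i • e i)).re * (B (∑ i, d i • e i) (∑ i, d i • e i)).re := by
  refine cs_pos hB (fun z => ?_) (nonneg_of_pos hpos d)
  have : (∑ i, c i • e i) + z • (∑ i, d i • e i) = ∑ i, (c i + z * d i) • e i := by
    simp only [add_smul, Finset.sum_add_distrib, Finset.smul_sum, smul_smul]
  rw [this]
  exact nonneg_of_pos hpos _

/-- If `a - Σ c e` is orthogonal to the frame then pairings with the frame agree. -/
theorem B_proj {p : ℕ} {e : Fin p → M} {a : M} {c : Fin p → ℂ}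
    (hc : ∀ i, B (a - ∑ k, c k • e k) (e i) = 0) (d : Fin p → ℂ) :
    B a (∑ k, d k • e k) = B (∑ k, c k • e k) (∑ k, d k • e k) := by
  rw [B_sum_right, B_sum_right]
  refine Finset.sum_congr rfl fun i _ => ?_
  have := hc i
  rw [map_sub, LinearMap.sub_apply, sub_eq_zero] at this
  rw [← this]

theorem B_perp_sum {p : ℕ} {e : Fin p → M} {a : M} (h : ∀ i, B a (e i) = 0) (d : Fin p → ℂ) :
    B a (∑ k, d k • e k) = 0 := by
  rw [B_sum_right]
  exact Finset.sum_eq_zero fun i _ => by rw [h i, mul_zero]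

/-- Bound of the coefficients of a projection. -/
theorem proj_bound {p : ℕ} {e : Fin p → M} {m : ℝ} (hm : 0 < m)
    (hcoer : ∀ c : Fin p → ℂ, m * ‖c‖ ^ 2 ≤ (B (∑ i, c i • e i) (∑ i, c i • e i)).re)
    {a : M} {c : Fin p → ℂ} (hc : ∀ i, B (a - ∑ k, c k • e k) (e i) = 0) :
    ‖c‖ ≤ (1 / m) * ∑ i, ‖B a (e i)‖ := by
  have h1 : B (∑ i, c i • e i) (∑ i, c i • e i) = ∑ i, conj (c i) * B a (e i) := by
    rw [← B_proj hc c, B_sum_right]
  have h2 : (B (∑ i, c i • e i) (∑ i, c i • e i)).re ≤ ‖c‖ * ∑ i, ‖B a (e i)‖ := by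
    rw [h1]
    refine (Complex.re_le_norm _).trans ((norm_sum_le _ _).trans ?_)
    rw [Finset.mul_sum]
    refine Finset.sum_le_sum fun i _ => ?_
    rw [norm_mul, Complex.norm_conj]
    exact mul_le_mul_of_nonneg_right (norm_le_pi_norm c i) (norm_nonneg _)
  have h3 := (hcoer c).trans h2
  have hS : 0 ≤ ∑ i, ‖B a (e i)‖ := Finset.sum_nonneg fun i _ => norm_nonneg _
  rcases (norm_nonneg c).eq_or_lt with h0 | h0
  · rw [← h0]; positivity
  · have h5 : m * ‖c‖ ≤ ∑ i, ‖B a (e i)‖ := by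
      by_contra hcon
      push Not at hcon
      nlinarith
    rw [one_div, ← div_eq_inv_mul, le_div_iff₀ hm]
    linarith

theorem B_sum_sum {p : ℕ} (c : Fin p → ℂ) (e : Fin p → M) :
    B (∑ i, c i • e i) (∑ i, c i • e i) = ∑ i, ∑ j, conj (c i) * (c j * B (e j) (e i)) := by
  rw [B_sum_right]
  refine Finset.sum_congr rfl fun i _ => ?_
  rw [B_sum_left, Finset.mul_sum]

end Algebra

section Coercive

variable {Q : ℂ → M →ₗ[ℂ] M →ₗ⋆[ℂ] ℂ}

/-- Uniform coercivity near a point where the frame is positive. -/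
theorem coercive {p : ℕ} {e : Fin p → M} {t0 : ℂ}
    (hc : ∀ i j, ContinuousAt (fun t => Q t (e i) (e j)) t0)
    (hpos : ∀ c : Fin p → ℂ, c ≠ 0 →
      0 < (Q t0 (∑ i, c i • e i) (∑ i, c i • e i)).re) :
    ∃ m : ℝ, 0 < m ∧ ∀ᶠ t in 𝓝 t0, ∀ c : Fin p → ℂ,
      m * ‖c‖ ^ 2 ≤ (Q t (∑ i, c i • e i) (∑ i, c i • e i)).re := by
  classical
  set Φ : ℂ → (Fin p → ℂ) → ℝ := fun t c => (Q t (∑ i, c i • e i) (∑ i, c i • e i)).re with hΦ
  have hcomp : IsCompact (Metric.sphere (0 : Fin p → ℂ) 1) := isCompact_sphere _ _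
  have hcont : Continuous (Φ t0) := by
    have : Φ t0 = fun c : Fin p → ℂ =>
        (∑ i, ∑ j, conj (c i) * (c j * Q t0 (e j) (e i))).re := by
      funext c
      rw [hΦ]
      simp only [B_sum_sum]
    rw [this]
    refine Complex.continuous_re.comp (continuous_finsetSum _ fun i _ =>
      continuous_finsetSum _ fun j _ => ?_)
    have h1 : Continuous fun c : Fin p → ℂ => conj (c i) :=
      Complex.continuous_conj.comp (continuous_apply i)
    exact h1.mul ((continuous_apply j).mul continuous_const)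
  have hmin : ∃ m0 : ℝ, 0 < m0 ∧ ∀ c ∈ Metric.sphere (0 : Fin p → ℂ) 1, m0 ≤ Φ t0 c := by
    rcases (Metric.sphere (0 : Fin p → ℂ) 1).eq_empty_or_nonempty with h | h
    · exact ⟨1, one_pos, fun c hc => by rw [h] at hc; exact hc.elim⟩
    · obtain ⟨c0, hc0, hm⟩ := hcomp.exists_isMinOn h hcont.continuousOn
      refine ⟨Φ t0 c0, hpos c0 ?_, fun c hc => hm hc⟩
      rintro rfl
      simp at hc0
  obtain ⟨m0, hm0, hmin⟩ := hmin
  -- Gram matrices
  have hG : Tendsto (fun t => ∑ i, ∑ j, ‖Q t (e j) (e i) - Q t0 (e j) (e i)‖) (𝓝 t0)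
      (𝓝 0) := by
    have : Tendsto (fun t => ∑ i, ∑ j, ‖Q t (e j) (e i) - Q t0 (e j) (e i)‖) (𝓝 t0)
        (𝓝 (∑ _i : Fin p, ∑ _j : Fin p, (0 : ℝ))) := by
      refine tendsto_finsetSum _ fun i _ => tendsto_finsetSum _ fun j _ => ?_
      have h1 : Tendsto (fun t => Q t (e j) (e i)) (𝓝 t0) (𝓝 (Q t0 (e j) (e i))) := hc j i
      have h2 := (h1.sub_const (Q t0 (e j) (e i))).norm
      simpa using h2
    simpa using this
  refine ⟨m0 / 2, by positivity, ?_⟩
  filter_upwards [hG.eventually (gt_mem_nhds (half_pos hm0))] with t ht c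
  have hdiff : ∀ c : Fin p → ℂ, ‖c‖ ≤ 1 → |Φ t c - Φ t0 c| ≤
      ∑ i, ∑ j, ‖Q t (e j) (e i) - Q t0 (e j) (e i)‖ := by
    intro c hc1
    rw [hΦ]
    simp only
    rw [← sub_re, B_sum_sum, B_sum_sum, ← Finset.sum_sub_distrib]
    refine (Complex.abs_re_le_norm _).trans ((norm_sum_le _ _).trans ?_)
    refine Finset.sum_le_sum fun i _ => ?_
    rw [← Finset.sum_sub_distrib]
    refine (norm_sum_le _ _).trans (Finset.sum_le_sum fun j _ => ?_)
    rw [← mul_sub, ← mul_sub, norm_mul, norm_mul, Complex.norm_conj]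
    have a1 : ‖c i‖ ≤ 1 := (norm_le_pi_norm c i).trans hc1
    have a2 : ‖c j‖ ≤ 1 := (norm_le_pi_norm c j).trans hc1
    have a3 := norm_nonneg (Q t (e j) (e i) - Q t0 (e j) (e i))
    calc ‖c i‖ * (‖c j‖ * ‖Q t (e j) (e i) - Q t0 (e j) (e i)‖) ≤
        1 * (1 * ‖Q t (e j) (e i) - Q t0 (e j) (e i)‖) := by gcongr
      _ = _ := by ring
  have hsph : ∀ c : Fin p → ℂ, ‖c‖ = 1 → m0 / 2 ≤ Φ t c := by
    intro c hc1
    have b1 := hdiff c hc1.le
    have b2 := hmin c (by simpa using hc1)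
    have b3 := (abs_le.1 b1).1
    linarith
  by_cases h0 : c = 0
  · subst h0; simp
  · have hn : 0 < ‖c‖ := norm_pos_iff.2 h0
    have b := hsph (((‖c‖⁻¹ : ℝ) : ℂ) • c) (by
      rw [norm_smul, Complex.norm_real, norm_inv, norm_norm, inv_mul_cancel₀ hn.ne'])
    have e1 : Φ t (((‖c‖⁻¹ : ℝ) : ℂ) • c) = (‖c‖⁻¹) ^ 2 * Φ t c := by
      rw [hΦ]
      simp only
      have : ∑ i, ((((‖c‖⁻¹ : ℝ) : ℂ) • c) i) • e i = ((‖c‖⁻¹ : ℝ) : ℂ) • ∑ i, c i • e i := by
        rw [Finset.smul_sum]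
        refine Finset.sum_congr rfl fun i _ => ?_
        rw [Pi.smul_apply, smul_smul, smul_eq_mul]
      rw [this, B_smul_right, B_smul_left, conj_ofReal, re_ofReal_mul, re_ofReal_mul]
      ring
    rw [e1] at b
    have e2 : Φ t c = ‖c‖ ^ 2 * ((‖c‖⁻¹) ^ 2 * Φ t c) := by
      field_simp
    show m0 / 2 * ‖c‖ ^ 2 ≤ Φ t c
    rw [e2]
    nlinarith [pow_pos hn 2]

/-- Continuity of the coefficients of a projection. -/
theorem proj_tendsto {p : ℕ} {e : Fin p → M} {a : M} {t0 : ℂ}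
    (he : ∀ i j, ContinuousAt (fun t => Q t (e i) (e j)) t0)
    (ha : ∀ i, ContinuousAt (fun t => Q t a (e i)) t0)
    (hpos : ∀ c : Fin p → ℂ, c ≠ 0 → 0 < (Q t0 (∑ i, c i • e i) (∑ i, c i • e i)).re)
    {c : ℂ → Fin p → ℂ}
    (hc : ∀ᶠ t in 𝓝 t0, ∀ i, Q t (a - ∑ k, c t k • e k) (e i) = 0) :
    Tendsto c (𝓝 t0) (𝓝 (c t0)) := by
  obtain ⟨m, hm, hco⟩ := coercive (Q := Q) he hpos
  have hc0 := hc.self_of_nhds
  have key : ∀ᶠ t in 𝓝 t0, ‖c t - c t0‖ ≤
      (1 / m) * ∑ i, ‖Q t (a - ∑ k, c t0 k • e k) (e i)‖ := by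
    filter_upwards [hco, hc] with t h1 h2
    refine proj_bound hm h1 (a := a - ∑ k, c t0 k • e k) (c := c t - c t0) fun i => ?_
    have : a - ∑ k, c t0 k • e k - ∑ k, (c t - c t0) k • e k =
        a - ∑ k, c t k • e k := by
      simp only [Pi.sub_apply, sub_smul, Finset.sum_sub_distrib]
      abel
    rw [this]
    exact h2 i
  rw [tendsto_iff_norm_sub_tendsto_zero]
  have hlim : Tendsto (fun t => (1 / m) * ∑ i, ‖Q t (a - ∑ k, c t0 k • e k) (e i)‖) (𝓝 t0)
      (𝓝 0) := by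
    have h1 : Tendsto (fun t => (1 / m) * ∑ i, ‖Q t (a - ∑ k, c t0 k • e k) (e i)‖) (𝓝 t0)
        (𝓝 ((1 / m) * ∑ i, ‖Q t0 (a - ∑ k, c t0 k • e k) (e i)‖)) := by
      refine Tendsto.const_mul _ (tendsto_finsetSum _ fun i _ => ?_)
      refine Tendsto.norm ?_
      have e1 : ∀ t, Q t (a - ∑ k, c t0 k • e k) (e i) =
          Q t a (e i) - ∑ k, c t0 k * Q t (e k) (e i) := by
        intro t
        rw [map_sub, LinearMap.sub_apply, B_sum_left]
      simp only [e1]
      exact (ha i).tendsto.sub (tendsto_finsetSum _ fun k _ => (he k i).tendsto.const_mul _)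
    have h2 : (1 / m) * ∑ i, ‖Q t0 (a - ∑ k, c t0 k • e k) (e i)‖ = 0 := by
      rw [Finset.sum_eq_zero fun i _ => by rw [hc0 i, norm_zero], mul_zero]
    rwa [h2] at h1
  exact squeeze_zero' (Eventually.of_forall fun _ => norm_nonneg _) key hlim

end Coercive

end Vale.Agent.P298.H265
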