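import Mathlib

/-!
P298, route of helper680 (note 5187), block S1, abstract half, MODULE FORM (notes 5694 of
helper39, 5737 of helper217).

`M` is a complex vector space of sections over a small open set `U` of the `t`-plane
(smooth fibrewise closed forms on the total space), `Q t` the hermitian pairing on the
fibre over `t`, `D` and `D'` the derivatives in the directions `t` and `conj t`.
No topology on `M`, no multiplication by functions is needed.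
-/

namespace Vale.Agent.P298.H265

open Complex ComplexConjugate Metric Set MeasureTheory

/-- The real linear map `τ ↦ a * τ + b * conj τ`. -/
noncomputable def wd (a b : ℂ) : ℂ →L[ℝ] ℂ :=
  ContinuousLinearMap.mul ℝ ℂ a + (ContinuousLinearMap.mul ℝ ℂ b).comp (conjCLE : ℂ →L[ℝ] ℂ)

@[simp] theorem wd_apply (a b τ : ℂ) : wd a b τ = a * τ + b * conj τ := by
  simp [wd]

structure ConnData {M : Type} [AddCommGroup M] [Module ℂ M]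
    (Q : ℂ → M →ₗ[ℂ] M →ₗ⋆[ℂ] ℂ) (D D' : M →ₗ[ℂ] M) {p q : ℕ} (U : Set ℂ)
    (w : Fin p → M) (u : Fin q → M) (η : M) : Prop where
  isOpen : IsOpen U
  /-- `Q t` is hermitian -/
  herm : ∀ t ∈ U, ∀ a b, Q t a b = conj (Q t b a)
  /-- derivative rule: `d_t Q(a,b) = Q(D a, b) + Q(a, D' b)`,
  `d_tbar Q(a,b) = Q(D' a, b) + Q(a, D b)` -/
  deriv_Q : ∀ t ∈ U, ∀ a b, HasFDerivAt (𝕜 := ℝ) (fun s => Q s a b)
    (wd (Q t (D a) b + Q t a (D' b)) (Q t (D' a) b + Q t a (D b))) t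
  /-- `[D, D'] = 0` modulo the radical -/
  comm : ∀ t ∈ U, ∀ a b, Q t (D (D' a)) b = Q t (D' (D a)) b
  w_hol : ∀ t ∈ U, ∀ i b, Q t (D' (w i)) b = 0
  η_hol : ∀ t ∈ U, ∀ b, Q t (D' η) b = 0
  u_anti : ∀ t ∈ U, ∀ j b, Q t (D (u j)) b = 0
  /-- `H^{2,0}` is orthogonal to `H^{0,2}` -/
  w_u : ∀ t ∈ U, ∀ i j, Q t (w i) (u j) = 0
  /-- Griffiths transversality for the frame -/
  dw_u : ∀ t ∈ U, ∀ i j, Q t (D (w i)) (u j) = 0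
  /-- Griffiths transversality for `η` -/
  dη_u : ∀ t ∈ U, ∀ j, Q t (D η) (u j) = 0
  /-- `η` is a section of `F^2` -/
  η_mem : ∀ t ∈ U, ∃ c : Fin p → ℂ, ∀ b, Q t (η - ∑ i, c i • w i) b = 0
  /-- `Q > 0` on `H^{2,0}` -/
  w_pos : ∀ t ∈ U, ∀ c : Fin p → ℂ, c ≠ 0 → 0 < (Q t (∑ i, c i • w i) (∑ i, c i • w i)).re
  /-- `Q > 0` on `H^{0,2}` -/
  u_pos : ∀ t ∈ U, ∀ c : Fin q → ℂ, c ≠ 0 → 0 < (Q t (∑ j, c j • u j) (∑ j, c j • u j)).re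
  /-- Hodge index: `Q ≤ 0` on the common orthogonal complement -/
  neg : ∀ t ∈ U, ∀ a, (∀ i, Q t a (w i) = 0) → (∀ j, Q t a (u j) = 0) → (Q t a a).re ≤ 0

/-- `r = |θη|^2` at `t`: minus the `Q`-square of the component of `D η` orthogonal to `F^2`. -/
def IsX {M : Type} [AddCommGroup M] [Module ℂ M] (Q : ℂ → M →ₗ[ℂ] M →ₗ⋆[ℂ] ℂ)
    (D : M →ₗ[ℂ] M) {p : ℕ} (w : Fin p → M) (η : M) (t : ℂ) (r : ℝ) : Prop :=
  ∃ c : Fin p → ℂ, (∀ i, Q t (D η - ∑ k, c k • w k) (w i) = 0) ∧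
    r = -(Q t (D η - ∑ k, c k • w k) (D η - ∑ k, c k • w k)).re

/-- `r = |θ^2 η|^2` at `t`: the `Q`-square of the `H^{0,2}`-component of `D D η`. -/
def IsY {M : Type} [AddCommGroup M] [Module ℂ M] (Q : ℂ → M →ₗ[ℂ] M →ₗ⋆[ℂ] ℂ)
    (D : M →ₗ[ℂ] M) {q : ℕ} (u : Fin q → M) (η : M) (t : ℂ) (r : ℝ) : Prop :=
  ∃ c : Fin q → ℂ, (∀ j, Q t (D (D η) - ∑ k, c k • u k) (u j) = 0) ∧
    r = (Q t (∑ k, c k • u k) (∑ k, c k • u k)).re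

/-- The functions `N, x, y` come from abstract data near `t0`. -/
def HasConn (N x y : ℂ → ℝ) (t0 : ℂ) : Prop :=
  ∃ (M : Type) (_ : AddCommGroup M) (_ : Module ℂ M)
    (Q : ℂ → M →ₗ[ℂ] M →ₗ⋆[ℂ] ℂ) (D D' : M →ₗ[ℂ] M) (p q : ℕ) (U : Set ℂ)
    (w : Fin p → M) (u : Fin q → M) (η : M), t0 ∈ U ∧ ConnData Q D D' U w u η ∧
    ∀ t ∈ U, N t = (Q t η η).re ∧ IsX Q D w η t (x t) ∧ IsY Q D u η t (y t)

/-- FINAL STATEMENT of the block `S1-ABS`. -/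
def S1Abs : Prop :=
  ∀ {R K : ℝ} {N x y : ℂ → ℝ} {T : Set ℂ}, 0 < R → T.Finite →
    ContinuousOn N (closedBall 0 R) → (∀ t ∈ closedBall (0 : ℂ) R, 0 ≤ N t) →
    (∀ t ∈ ball (0 : ℂ) R \ T, x t ≤ K ∧ y t ≤ K) →
    (∀ t ∈ ball (0 : ℂ) R \ T, HasConn N x y t) →
    (∀ B : ℝ, (∀ t : ℂ, R / 11 ≤ ‖t‖ → ‖t‖ ≤ R → N t ≤ B) →
      ∀ t ∈ closedBall (0 : ℂ) R, N t ≤ 2 * B) ∧
    (∀ t : ℂ, ‖t‖ ≤ R / 2 → N t ≤ 8000 * ((∫ z in ball (0 : ℂ) R, N z) / (Real.pi * R ^ 2)))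

end Vale.Agent.P298.H265
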