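import Vale.Agent.P298.H265.Wirt

/-!
P298, block S1-ABS (helper265): expansion of `Q_t (A, A)` for `A = a0 + τ a1 + τbar a2`.
-/

namespace Vale.Agent.P298.H265

open Complex ComplexConjugate Metric Set Filter Topology Asymptotics

variable {M : Type} [AddCommGroup M] [Module ℂ M]
  {Q : ℂ → M →ₗ[ℂ] M →ₗ⋆[ℂ] ℂ} {D D' : M →ₗ[ℂ] M} {p q : ℕ} {U : Set ℂ}
  {w : Fin p → M} {u : Fin q → M} {η : M}

/-- `c` is in the radical, for all `t`. -/
def Null (Q : ℂ → M →ₗ[ℂ] M →ₗ⋆[ℂ] ℂ) (U : Set ℂ) (c : M) : Prop :=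
  ∀ t ∈ U, ∀ b, Q t c b = 0

theorem ConnData.hasF (h : ConnData Q D D' U w u η) {t : ℂ} (ht : t ∈ U) (a b : M) :
    HasFDerivAt (𝕜 := ℝ) (fun s => Q s a b)
      (wd (Q t (D a) b + Q t a (D' b)) (Q t (D' a) b + Q t a (D b))) t := h.deriv_Q t ht a b

theorem ConnData.cont (h : ConnData Q D D' U w u η) {t : ℂ} (ht : t ∈ U) (a b : M) :
    ContinuousAt (fun s => Q s a b) t := (h.hasF ht a b).continuousAt

theorem ConnData.mem_nhds (h : ConnData Q D D' U w u η) {t : ℂ} (ht : t ∈ U) : U ∈ 𝓝 t :=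
  h.isOpen.mem_nhds ht

theorem ConnData.null_D (h : ConnData Q D D' U w u η) {c : M} (hc : Null Q U c) :
    Null Q U (D c) ∧ Null Q U (D' c) := by
  have key : ∀ t ∈ U, ∀ b, Q t (D c) b = 0 ∧ Q t (D' c) b = 0 := by
    intro t ht b
    have h1 := h.hasF ht c b
    have h2 : HasFDerivAt (𝕜 := ℝ) (fun s => Q s c b) (wd 0 0) t := by
      have h3 : HasFDerivAt (𝕜 := ℝ) (fun _ : ℂ => (0 : ℂ)) (0 : ℂ →L[ℝ] ℂ) t :=
        hasFDerivAt_const _ _
      have h4 : (wd 0 0 : ℂ →L[ℝ] ℂ) = 0 := by ext z; simp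
      rw [h4]
      refine h3.congr_of_eventuallyEq ?_
      filter_upwards [h.mem_nhds ht] with s hs
      exact hc s hs b
    obtain ⟨h5, h6⟩ := wd_inj (h1.unique h2)
    rw [hc t ht, add_zero] at h5 h6
    exact ⟨h5, h6⟩
  exact ⟨fun t ht b => (key t ht b).1, fun t ht b => (key t ht b).2⟩

theorem ConnData.null_right (h : ConnData Q D D' U w u η) {c : M} (hc : Null Q U c) {t : ℂ}
    (ht : t ∈ U) (a : M) : Q t a c = 0 := by
  rw [h.herm t ht, hc t ht, map_zero]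

theorem Null.add {c d : M} (hc : Null Q U c) (hd : Null Q U d) : Null Q U (c + d) := by
  intro t ht b
  rw [map_add, LinearMap.add_apply, hc t ht, hd t ht, add_zero]

theorem Null.sub {c d : M} (hc : Null Q U c) (hd : Null Q U d) : Null Q U (c - d) := by
  intro t ht b
  rw [map_sub, LinearMap.sub_apply, hc t ht, hd t ht, sub_zero]

theorem Null.smul {c : M} (hc : Null Q U c) (z : ℂ) : Null Q U (z • c) := by
  intro t ht b
  rw [B_smul_left, hc t ht, mul_zero]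

theorem Null.sum {n : ℕ} {e : Fin n → M} (he : ∀ i, Null Q U (e i)) (c : Fin n → ℂ) :
    Null Q U (∑ i, c i • e i) := by
  intro t ht b
  rw [B_sum_left]
  exact Finset.sum_eq_zero fun i _ => by rw [he i t ht, mul_zero]

theorem isLittleO_mul_of {f g : ℂ → ℂ} {m n : ℕ} (hf : f =O[𝓝 0] fun τ : ℂ => ‖τ‖ ^ m)
    (hg : g =o[𝓝 0] fun τ : ℂ => ‖τ‖ ^ n) : (fun τ => f τ * g τ) =o[𝓝 0]
      fun τ : ℂ => ‖τ‖ ^ (m + n) := by
  refine (hf.mul_isLittleO hg).congr_right fun τ => ?_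
  ring

theorem isLittleO_re {f : ℂ → ℂ} {F : ℂ → ℝ} (hf : f =o[𝓝 0] F) :
    (fun τ => (f τ).re) =o[𝓝 0] F := by
  refine IsBigO.trans_isLittleO (IsBigO.of_bound 1 (Eventually.of_forall fun τ => ?_)) hf
  rw [one_mul]
  exact Complex.abs_re_le_norm _

/-- Second order expansion of `Q_t (A, A)`, `A = a0 + τ a1 + τbar a2`. -/
theorem ConnData.jet (h : ConnData Q D D' U w u η) {t0 : ℂ} (ht : t0 ∈ U) (a0 a1 a2 : M) :
    ∃ b : ℂ, HasJet (fun t => (Q t (a0 + (t - t0) • a1 + conj (t - t0) • a2)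
        (a0 + (t - t0) • a1 + conj (t - t0) • a2)).re) t0
      (2 * (Q t0 (D a0 + a1) a0 + Q t0 a0 (D' a0 + a2))) b
      ((Q t0 (D a0 + a1) (D a0 + a1)).re + (Q t0 (D' a0 + a2) (D' a0 + a2)).re +
        2 * (Q t0 (D (D' a0) + D' a1 + D a2) a0).re) := by
  -- second order expansion of Q(a0,a0)
  set P : ℂ → ℂ := fun t => Q t (D a0) a0 + Q t a0 (D' a0) with hP
  set R : ℂ → ℂ := fun t => Q t (D' a0) a0 + Q t a0 (D a0) with hR
  set k : ℂ := Q t0 (D (D' a0)) a0 + Q t0 (D a0) (D a0) + Q t0 (D' a0) (D' a0) +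
    Q t0 a0 (D (D' a0)) with hk
  set P1 : ℂ := Q t0 (D (D a0)) a0 + Q t0 (D a0) (D' a0) + Q t0 (D a0) (D' a0) +
    Q t0 a0 (D' (D' a0)) with hP1
  set R2 : ℂ := Q t0 (D' (D' a0)) a0 + Q t0 (D' a0) (D a0) + Q t0 (D' a0) (D a0) +
    Q t0 a0 (D (D a0)) with hR2
  have e0 : ∀ᶠ t in 𝓝 t0, HasFDerivAt (𝕜 := ℝ) (fun s => Q s a0 a0) (wd (P t) (R t)) t := by
    filter_upwards [h.mem_nhds ht] with t ht'
    exact h.hasF ht' a0 a0
  have eP : HasFDerivAt (𝕜 := ℝ) P (wd P1 k) t0 := by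
    have := (h.hasF ht (D a0) a0).add (h.hasF ht a0 (D' a0))
    refine this.congr_fderiv ?_
    ext z
    have c1 := h.comm t0 ht a0 a0
    simp only [ContinuousLinearMap.add_apply, wd_apply, hP1, hk]
    rw [c1]
    ring
  have eR : HasFDerivAt (𝕜 := ℝ) R (wd k R2) t0 := by
    have := (h.hasF ht (D' a0) a0).add (h.hasF ht a0 (D a0))
    refine this.congr_fderiv ?_
    ext z
    have c1 : Q t0 a0 (D' (D a0)) = Q t0 a0 (D (D' a0)) := by
      rw [h.herm t0 ht a0, h.herm t0 ht a0, h.comm t0 ht]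
    simp only [ContinuousLinearMap.add_apply, wd_apply, hR2, hk]
    rw [c1]
    ring
  have E0 := taylor_wirt e0 eP eR
  -- first order expansions
  have E1 := hasFDerivAt_iff_isLittleO_nhds_zero.1 (h.hasF ht a1 a0)
  have E2 := hasFDerivAt_iff_isLittleO_nhds_zero.1 (h.hasF ht a2 a0)
  have toPow : ∀ {f : ℂ → ℂ}, (f =o[𝓝 0] fun τ : ℂ => τ) → f =o[𝓝 0] fun τ : ℂ => ‖τ‖ ^ 1 := by
    intro f hf
    simp only [pow_one]
    exact hf.norm_right
  have zO : ∀ (a b : M), (fun τ : ℂ => Q (t0 + τ) a b - Q t0 a b) =o[𝓝 0]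
      fun τ : ℂ => ‖τ‖ ^ 0 := by
    intro a b
    have h1 : Tendsto (fun τ => Q (t0 + τ) a b - Q t0 a b) (𝓝 0) (𝓝 0) := by
      have := ((h.cont ht a b).tendsto.comp (tendsto_add_zero t0)).sub_const (Q t0 a b)
      simpa using this
    simp only [pow_zero]
    exact (isLittleO_one_iff ℝ).2 h1
  have o1 : (fun τ : ℂ => τ) =O[𝓝 0] fun τ : ℂ => ‖τ‖ ^ 1 := by
    simpa using cpow_isBigO (k := 1) (f := fun τ => τ) (fun τ => by simp) 1
  have o1' : (fun τ : ℂ => conj τ) =O[𝓝 0] fun τ : ℂ => ‖τ‖ ^ 1 := by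
    simpa using cpow_isBigO (k := 1) (f := fun τ => conj τ) (fun τ => by simp) 1
  have o2 : (fun τ : ℂ => τ * conj τ) =O[𝓝 0] fun τ : ℂ => ‖τ‖ ^ 2 := by
    simpa using cpow_isBigO (k := 2) (f := fun τ => τ * conj τ) (fun τ => by
      rw [norm_mul, Complex.norm_conj]; ring) 1
  have o2' : (fun τ : ℂ => τ ^ 2) =O[𝓝 0] fun τ : ℂ => ‖τ‖ ^ 2 := by
    simpa using cpow_isBigO (k := 2) (f := fun τ => τ ^ 2) (fun τ => by simp) 1
  have F1 := isLittleO_mul_of o1 (toPow E1)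
  have F2 := isLittleO_mul_of o1' (toPow E2)
  have F3 := isLittleO_mul_of o2 (zO a1 a1)
  have F4 := isLittleO_mul_of o2 (zO a2 a2)
  have F5 := isLittleO_mul_of o2' (zO a1 a2)
  norm_num at F1 F2 F3 F4 F5
  have G0 := isLittleO_re E0
  have G1 := (isLittleO_re F1).const_mul_left 2
  have G2 := (isLittleO_re F2).const_mul_left 2
  have G3 := isLittleO_re F3
  have G4 := isLittleO_re F4
  have G5 := (isLittleO_re F5).const_mul_left 2
  refine ⟨P1 / 2 + conj R2 / 2 + 2 * ((Q t0 (D a1) a0 + Q t0 a1 (D' a0)) +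
    conj (Q t0 (D' a2) a0 + Q t0 a2 (D a0)) + Q t0 a1 a2), ?_⟩
  have hU : ∀ᶠ τ in 𝓝 (0 : ℂ), t0 + τ ∈ U := (tendsto_add_zero t0).eventually (h.mem_nhds ht)
  refine IsLittleO.congr' (((((G0.add G1).add G2).add G3).add G4).add G5) ?_ EventuallyEq.rfl
  filter_upwards [hU] with τ hτU
  have hτ : t0 + τ - t0 = τ := by ring
  have hA : (Q (t0 + τ) (a0 + τ • a1 + conj τ • a2) (a0 + τ • a1 + conj τ • a2)).re =
      (Q (t0 + τ) a0 a0).re + 2 * (τ * Q (t0 + τ) a1 a0).re +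
      2 * (conj τ * Q (t0 + τ) a2 a0).re + (τ * conj τ * Q (t0 + τ) a1 a1).re +
      (τ * conj τ * Q (t0 + τ) a2 a2).re + 2 * (τ ^ 2 * Q (t0 + τ) a1 a2).re := by
    simp only [map_add, LinearMap.add_apply, B_smul_left, B_smul_right, conj_conj]
    rw [h.herm _ hτU a0 a1, h.herm _ hτU a0 a2, h.herm _ hτU a2 a1]
    simp only [add_re, mul_re, mul_im, conj_re, conj_im, pow_two]
    ring
  have v0 : (Q t0 (a0 + (t0 - t0) • a1 + conj (t0 - t0) • a2)
      (a0 + (t0 - t0) • a1 + conj (t0 - t0) • a2)).re = (Q t0 a0 a0).re := by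
    simp
  simp only [hτ, hA]
  rw [v0]
  have s1 : Q t0 a0 (D a0) = conj (Q t0 (D a0) a0) := h.herm _ ht _ _
  have s2 : Q t0 a0 (D' a0) = conj (Q t0 (D' a0) a0) := h.herm _ ht _ _
  have s3 : Q t0 a0 (D (D' a0)) = conj (Q t0 (D (D' a0)) a0) := h.herm _ ht _ _
  have s4 : Q t0 (D a0) a1 = conj (Q t0 a1 (D a0)) := h.herm _ ht _ _
  have s5 : Q t0 (D' a0) a2 = conj (Q t0 a2 (D' a0)) := h.herm _ ht _ _
  have s6 : Q t0 a0 a2 = conj (Q t0 a2 a0) := h.herm _ ht _ _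
  have i1 := im_self (h.herm t0 ht) (D a0)
  have i2 := im_self (h.herm t0 ht) (D' a0)
  have i3 := im_self (h.herm t0 ht) a1
  have i4 := im_self (h.herm t0 ht) a2
  have nτ : ‖τ‖ ^ 2 = τ.re * τ.re + τ.im * τ.im := by
    rw [← Complex.normSq_eq_norm_sq, Complex.normSq_apply]
  rw [nτ]
  simp only [hP, hR, hk, map_add, LinearMap.add_apply, s1, s2, s3, s4, s5, s6, wd_apply]
  simp only [add_re, add_im, sub_re, sub_im, mul_re, mul_im, conj_re, conj_im, pow_two, i1, i2,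
    i3, i4, re_ofNat, im_ofNat, conj_conj, map_add, div_ofNat_re, div_ofNat_im]
  ring

end Vale.Agent.P298.H265
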