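import Vale.Agent.P298.H265.Supp
import Vale.Agent.P298.H283.Glob

/-!
P298, block S1-ABS (helper265 + helper283): final statement.
-/

namespace Vale.Agent.P298.H265

open Complex ComplexConjugate Metric Set Filter Topology Asymptotics

theorem HasConn.supp {N x y : ℂ → ℝ} {t0 : ℂ} (h : HasConn N x y t0) :
    H283.Supp N x y t0 ∧ 0 ≤ x t0 ∧ 0 ≤ y t0 ∧ ContinuousAt x t0 ∧ ContinuousAt y t0 := by
  obtain ⟨M, i1, i2, Q, D, D', p, q, U, w, u, η, ht, hd, hall⟩ := h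
  have hN : ∀ t ∈ U, N t = (Q t η η).re := fun t ht => (hall t ht).1
  have hx : ∀ t ∈ U, IsX Q D w η t (x t) := fun t ht => (hall t ht).2.1
  have hy : ∀ t ∈ U, IsY Q D u η t (y t) := fun t ht => (hall t ht).2.2
  refine ⟨⟨?_, ?_, ?_⟩, hd.isX_nonneg ht (hx t0 ht), hd.isY_nonneg ht (hy t0 ht),
    hd.cont_x ht hx, hd.cont_y ht hy⟩
  · obtain ⟨L, hL, hle⟩ := hd.supp_N ht (hx t0 ht)
    refine ⟨fun t => (Q t η η).re, L, hL, hle, (hN t0 ht).symm, ?_⟩
    filter_upwards [hd.mem_nhds ht] with t ht'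
    exact (hN t ht').ge
  · intro hpos
    obtain ⟨h1, g, L, h2, h3, h4, h5⟩ := hd.supp_x ht hx hy hpos
    rw [hN t0 ht]
    exact ⟨h1, g, L, h2, h3, h4, h5⟩
  · intro hpos
    exact hd.supp_y ht hx hy hpos

/-- **S1-ABS.** -/
theorem s1Abs : S1Abs := by
  intro R K N x y T hR hT hNc hN0 hK hloc
  have hs := fun z hz => (hloc z hz).supp
  exact H283.glob hR hT hNc hN0 (fun z hz => (hs z hz).2.1) (fun z hz => (hs z hz).2.2.1)
    (fun z hz => (hK z hz).1) (fun z hz => (hK z hz).2)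
    (fun z hz => (hs z hz).2.2.2.1.continuousWithinAt)
    (fun z hz => (hs z hz).2.2.2.2.continuousWithinAt) (fun z hz => (hs z hz).1)

end Vale.Agent.P298.H265
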