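import Vale.Agent.P298.H265.JetQ

/-!
P298, block S1-ABS (helper265): the three lower support functions.
-/

namespace Vale.Agent.P298.H265

open Complex ComplexConjugate Metric Set Filter Topology Asymptotics

variable {M : Type} [AddCommGroup M] [Module ℂ M]
  {Q : ℂ → M →ₗ[ℂ] M →ₗ⋆[ℂ] ℂ} {D D' : M →ₗ[ℂ] M} {p q : ℕ} {U : Set ℂ}
  {w : Fin p → M} {u : Fin q → M} {η : M}

theorem B_sub_left (B : M →ₗ[ℂ] M →ₗ⋆[ℂ] ℂ) (a b c : M) : B (a - b) c = B a c - B b c := by
  rw [map_sub B a b, LinearMap.sub_apply]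

theorem B_add_left (B : M →ₗ[ℂ] M →ₗ⋆[ℂ] ℂ) (a b c : M) : B (a + b) c = B a c + B b c := by
  rw [map_add B a b, LinearMap.add_apply]

/-! ### first order identities -/

/-- If `Q_s(a,b) = 0` for all `s ∈ U` then both derivatives vanish. -/
theorem ConnData.deriv_zero (h : ConnData Q D D' U w u η) {a b : M}
    (hab : ∀ s ∈ U, Q s a b = 0) {t : ℂ} (ht : t ∈ U) :
    Q t (D a) b + Q t a (D' b) = 0 ∧ Q t (D' a) b + Q t a (D b) = 0 := by
  have h1 := h.hasF ht a b
  have h2 : HasFDerivAt (𝕜 := ℝ) (fun s => Q s a b) (wd 0 0) t := by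
    have h3 : HasFDerivAt (𝕜 := ℝ) (fun _ : ℂ => (0 : ℂ)) (0 : ℂ →L[ℝ] ℂ) t :=
      hasFDerivAt_const _ _
    have h4 : (wd 0 0 : ℂ →L[ℝ] ℂ) = 0 := by ext z; simp
    rw [h4]
    refine h3.congr_of_eventuallyEq ?_
    filter_upwards [h.mem_nhds ht] with s hs
    exact hab s hs
  exact wd_inj (h1.unique h2)

theorem ConnData.null_w (h : ConnData Q D D' U w u η) (i : Fin p) : Null Q U (D' (w i)) :=
  fun t ht b => h.w_hol t ht i b

theorem ConnData.null_u (h : ConnData Q D D' U w u η) (j : Fin q) : Null Q U (D (u j)) :=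
  fun t ht b => h.u_anti t ht j b

theorem ConnData.null_η (h : ConnData Q D D' U w u η) : Null Q U (D' η) :=
  fun t ht b => h.η_hol t ht b

theorem ConnData.null_DDη (h : ConnData Q D D' U w u η) : Null Q U (D' (D η)) := by
  intro t ht b
  rw [← h.comm t ht]
  exact (h.null_D h.null_η).1 t ht b

theorem ConnData.null_DDDη (h : ConnData Q D D' U w u η) : Null Q U (D' (D (D η))) := by
  intro t ht b
  rw [← h.comm t ht]
  exact (h.null_D h.null_DDη).1 t ht b

/-- `Q (w_i, D' u_j) = 0`. -/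
theorem ConnData.w_du (h : ConnData Q D D' U w u η) {t : ℂ} (ht : t ∈ U) (i : Fin p)
    (j : Fin q) : Q t (w i) (D' (u j)) = 0 := by
  have := (h.deriv_zero (fun s hs => h.w_u s hs i j) ht).1
  rwa [h.dw_u t ht, zero_add] at this

/-- `Q (D η, D' u_j) = - Q (D D η, u_j)`. -/
theorem ConnData.dη_du (h : ConnData Q D D' U w u η) {t : ℂ} (ht : t ∈ U)
    (j : Fin q) : Q t (D η) (D' (u j)) = - Q t (D (D η)) (u j) := by
  have := (h.deriv_zero (fun s hs => h.dη_u s hs j) ht).1
  linear_combination this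

/-- The common orthogonal complement at `t`. -/
def Perp (Q : ℂ → M →ₗ[ℂ] M →ₗ⋆[ℂ] ℂ) (w : Fin p → M) (u : Fin q → M) (t : ℂ) (a : M) : Prop :=
  (∀ i, Q t a (w i) = 0) ∧ (∀ j, Q t a (u j) = 0)

theorem Perp.add_smul {t : ℂ} {a b : M} (ha : Perp Q w u t a) (hb : Perp Q w u t b) (c : ℂ) :
    Perp Q w u t (a + c • b) := by
  constructor
  · intro i
    rw [map_add, LinearMap.add_apply, B_smul_left, ha.1, hb.1, mul_zero, add_zero]
  · intro j
    rw [map_add, LinearMap.add_apply, B_smul_left, ha.2, hb.2, mul_zero, add_zero]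

theorem ConnData.cs_perp (h : ConnData Q D D' U w u η) {t : ℂ} (ht : t ∈ U) {a b : M}
    (ha : Perp Q w u t a) (hb : Perp Q w u t b) :
    ‖Q t a b‖ ^ 2 ≤ (-(Q t a a).re) * (-(Q t b b).re) :=
  cs_neg (h.herm t ht) (fun c => h.neg t ht _ (ha.add_smul hb c).1 (ha.add_smul hb c).2)
    (h.neg t ht _ hb.1 hb.2)

/-- The vector `v = D η - Σ c w` lies in the common orthogonal complement. -/
theorem ConnData.perp_v (h : ConnData Q D D' U w u η) {t : ℂ} (ht : t ∈ U) {c : Fin p → ℂ}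
    (hc : ∀ i, Q t (D η - ∑ k, c k • w k) (w i) = 0) :
    Perp Q w u t (D η - ∑ k, c k • w k) := by
  refine ⟨hc, fun j => ?_⟩
  rw [map_sub, LinearMap.sub_apply, h.dη_u t ht, B_sum_left]
  rw [Finset.sum_eq_zero fun i _ => by rw [h.w_u t ht, mul_zero], sub_zero]

theorem ConnData.w_perp {t : ℂ} (h : ConnData Q D D' U w u η) (ht : t ∈ U) {a : M}
    (ha : Perp Q w u t a) (c : Fin p → ℂ) : Q t (∑ k, c k • w k) a = 0 := by
  rw [h.herm t ht, B_perp_sum ha.1, map_zero]

/-- Signs. -/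
theorem ConnData.isX_nonneg (h : ConnData Q D D' U w u η) {t : ℂ} (ht : t ∈ U) {r : ℝ}
    (hr : IsX Q D w η t r) : 0 ≤ r := by
  obtain ⟨c, hc, rfl⟩ := hr
  have := h.perp_v ht hc
  have := h.neg t ht _ this.1 this.2
  linarith

theorem ConnData.isY_nonneg (h : ConnData Q D D' U w u η) {t : ℂ} (ht : t ∈ U) {r : ℝ}
    (hr : IsY Q D u η t r) : 0 ≤ r := by
  obtain ⟨c, hc, rfl⟩ := hr
  exact nonneg_of_pos (h.u_pos t ht) c

/-! ### the support of `N` -/

theorem ConnData.supp_N (h : ConnData Q D D' U w u η) {t0 : ℂ} (ht : t0 ∈ U) {r : ℝ}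
    (hr : IsX Q D w η t0 r) :
    ∃ L, HasLap (fun t => (Q t η η).re) t0 L ∧ - r ≤ L := by
  obtain ⟨b, hb⟩ := h.jet ht η 0 0
  refine ⟨_, (HasJet.hasLap hb).congr (Eventually.of_forall fun t => by simp), ?_⟩
  obtain ⟨c, hc, rfl⟩ := hr
  have e1 : (Q t0 (D' η + 0) (D' η + 0)).re = 0 := by
    rw [add_zero, h.η_hol t0 ht, zero_re]
  have e2 : (Q t0 (D (D' η) + D' 0 + D 0) η).re = 0 := by
    rw [map_zero, map_zero, add_zero, add_zero, (h.null_D h.null_η).1 t0 ht, zero_re]
  rw [e1, e2]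
  have hp := h.perp_v ht hc
  set v := D η - ∑ k, c k • w k with hv
  have hD : D η = v + ∑ k, c k • w k := by rw [hv]; abel
  have e3 : (Q t0 (D η + 0) (D η + 0)).re = (Q t0 v v).re +
      (Q t0 (∑ k, c k • w k) (∑ k, c k • w k)).re := by
    rw [add_zero]
    conv_lhs => rw [hD]
    simp only [map_add, LinearMap.add_apply]
    rw [B_perp_sum hp.1, h.w_perp ht hp, add_zero, zero_add, add_re]
  rw [e3]
  have := nonneg_of_pos (h.w_pos t0 ht) c
  linarith

/-! ### the support of `y` -/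

theorem hasDerivAt_conj_coeff {φ : ℂ → ℂ} {t P : ℂ}
    (h : HasFDerivAt (𝕜 := ℝ) φ (wd P 0) t) : DifferentiableAt ℂ φ t :=
  (hasDerivAt_of_wd h).differentiableAt

theorem ConnData.y_analytic (h : ConnData Q D D' U w u η) {t0 : ℂ} (ht : t0 ∈ U)
    (β : Fin q → ℂ) : AnalyticAt ℂ (fun t => Q t (D (D η)) (∑ k, β k • u k)) t0 := by
  rw [Complex.analyticAt_iff_eventually_differentiableAt]
  filter_upwards [h.mem_nhds ht] with t ht'
  have h1 := h.hasF ht' (D (D η)) (∑ k, β k • u k)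
  have h2 : Q t (D' (D (D η))) (∑ k, β k • u k) + Q t (D (D η)) (D (∑ k, β k • u k)) = 0 := by
    rw [h.null_DDDη t ht', zero_add]
    have : Null Q U (D (∑ k, β k • u k)) := by
      rw [map_sum]
      simp only [map_smul]
      exact Null.sum (fun j => h.null_u j) β
    exact h.null_right this ht' _
  rw [h2] at h1
  exact hasDerivAt_conj_coeff h1

theorem ConnData.supp_y (h : ConnData Q D D' U w u η) {t0 : ℂ} (ht : t0 ∈ U) {x y : ℂ → ℝ}
    (hx : ∀ t ∈ U, IsX Q D w η t (x t)) (hy : ∀ t ∈ U, IsY Q D u η t (y t))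
    (hpos : 0 < y t0) : 0 < x t0 ∧ ∃ (g : ℂ → ℝ) (L : ℝ), HasLap g t0 L ∧
      y t0 / x t0 ≤ L ∧ Real.exp (g t0) = y t0 ∧ ∀ᶠ z in 𝓝 t0, Real.exp (g z) ≤ y z := by
  obtain ⟨β, hβ, hyβ⟩ := hy t0 ht
  obtain ⟨c, hc, hxc⟩ := hx t0 ht
  have hp := h.perp_v ht hc
  set b0 : M := ∑ k, β k • u k with hb0
  set v : M := D η - ∑ k, c k • w k with hv
  -- normalisation of the antiholomorphic section
  obtain ⟨γ, hγ⟩ := exists_proj (h.u_pos t0 ht) (D' b0)
  set g0 : M := ∑ k, γ k • u k with hg0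
  have nDb0 : Null Q U (D b0) := by
    rw [hb0, map_sum]
    simp only [map_smul]
    exact Null.sum (fun j => h.null_u j) β
  have nDg0 : Null Q U (D g0) := by
    rw [hg0, map_sum]
    simp only [map_smul]
    exact Null.sum (fun j => h.null_u j) γ
  -- u1 = D' b0 - g0 lies in Perp
  have hu1w : ∀ i, Q t0 (D' b0 - g0) (w i) = 0 := by
    intro i
    rw [h.herm t0 ht]
    have : Q t0 (w i) (D' b0 - g0) = 0 := by
      rw [map_sub, hb0, hg0, map_sum]
      simp only [map_smul]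
      rw [B_sum_right, B_sum_right]
      rw [Finset.sum_eq_zero fun j _ => by rw [h.w_du ht, mul_zero],
        Finset.sum_eq_zero fun j _ => by rw [h.w_u t0 ht, mul_zero], sub_zero]
    rw [this, map_zero]
  have hu1 : Perp Q w u t0 (D' b0 - g0) := ⟨hu1w, hγ⟩
  -- Q (v, u1) = - y
  have hvu1 : Q t0 v (D' b0 - g0) = - Q t0 b0 b0 := by
    have e1 : Q t0 v (D' b0 - g0) = Q t0 (D η) (D' b0 - g0) := by
      rw [hv, B_sub_left, h.w_perp ht hu1, sub_zero]
    have e2 : Q t0 (D η) g0 = 0 := B_perp_sum (fun j => h.dη_u t0 ht j) γ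
    have e3 : Q t0 (D η) (D' b0) = - Q t0 (D (D η)) b0 := by
      rw [hb0, map_sum]
      simp only [map_smul]
      rw [B_sum_right, B_sum_right, ← Finset.sum_neg_distrib]
      refine Finset.sum_congr rfl fun j _ => ?_
      rw [h.dη_du ht]
      ring
    rw [e1, map_sub, e2, e3, sub_zero]
    congr 1
    exact B_proj hβ β
  have hyre : (y t0 : ℂ) = Q t0 b0 b0 := by
    apply Complex.ext
    · rw [ofReal_re, hyβ]
    · rw [ofReal_im, im_self (h.herm t0 ht)]
  have hcs := h.cs_perp ht hp hu1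
  rw [hvu1, ← hyre, norm_neg, Complex.norm_real, Real.norm_eq_abs, sq_abs, ← hxc] at hcs
  set s : ℝ := -(Q t0 (D' b0 - g0) (D' b0 - g0)).re with hs
  have hx0 : 0 ≤ x t0 := h.isX_nonneg ht (hx t0 ht)
  have hxpos : 0 < x t0 := by
    rcases hx0.eq_or_lt with h0 | h0
    · exfalso
      rw [← h0, zero_mul] at hcs
      nlinarith
    · exact h0
  refine ⟨hxpos, ?_⟩
  -- the section u(t) and its norm
  obtain ⟨bj, hjet⟩ := h.jet ht b0 0 (-g0)
  have hA2 : D' b0 + -g0 = D' b0 - g0 := by abel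
  have e1 : Q t0 (D b0 + 0) b0 + Q t0 b0 (D' b0 + -g0) = 0 := by
    rw [add_zero, nDb0 t0 ht, zero_add, hA2, h.herm t0 ht, B_perp_sum hu1.2, map_zero]
  have e2 : (Q t0 (D b0 + 0) (D b0 + 0)).re = 0 := by
    rw [add_zero, nDb0 t0 ht, zero_re]
  have e3 : (Q t0 (D (D' b0) + D' 0 + D (-g0)) b0).re = 0 := by
    rw [map_zero, add_zero, map_neg, map_add, LinearMap.add_apply, map_neg,
      LinearMap.neg_apply, nDg0 t0 ht, h.comm t0 ht, (h.null_D nDb0).2 t0 ht]
    simp
  rw [e1, e2, e3, hA2, mul_zero, mul_zero, add_zero, zero_add] at hjet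
  have hden0 : 0 < (Q t0 (b0 + (t0 - t0) • 0 + conj (t0 - t0) • (-g0))
      (b0 + (t0 - t0) • 0 + conj (t0 - t0) • (-g0))).re := by
    simp only [sub_self, zero_smul, map_zero, add_zero]
    rw [← hyβ]; exact hpos
  have hlogden := HasJet.log_zero hjet hden0
  -- the numerator
  set A : ℂ → ℂ := fun t => Q t (D (D η)) b0 - (t - t0) * Q t (D (D η)) g0 with hA
  have hAan : AnalyticAt ℂ A t0 := by
    rw [hA]
    exact (h.y_analytic ht β).sub (((analyticAt_id).sub analyticAt_const).mul (h.y_analytic ht γ))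
  have hA0 : A t0 = (y t0 : ℂ) := by
    rw [hA]
    simp only [sub_self, zero_mul, sub_zero]
    rw [hyre]
    exact B_proj hβ β
  have hA0' : A t0 ≠ 0 := by
    rw [hA0]
    exact_mod_cast hpos.ne'
  have hlognum := hasLap_log_norm hAan hA0'
  refine ⟨fun t => 2 * Real.log ‖A t‖ - Real.log (Q t (b0 + (t - t0) • 0 + conj (t - t0) • (-g0))
      (b0 + (t - t0) • 0 + conj (t - t0) • (-g0))).re, _, (hlognum.const_mul 2).sub hlogden,
      ?_, ?_, ?_⟩
  · simp only [sub_self, zero_smul, map_zero, add_zero]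
    rw [← hyβ]
    have : 2 * 0 - (Q t0 (D' b0 - g0) (D' b0 - g0)).re / y t0 = s / y t0 := by
      rw [hs]; ring
    rw [this, div_le_div_iff₀ hxpos hpos]
    nlinarith
  · simp only [sub_self, zero_smul, map_zero, add_zero]
    rw [hA0, ← hyβ, Complex.norm_real, Real.norm_eq_abs, abs_of_pos hpos]
    have : 2 * Real.log (y t0) - Real.log (y t0) = Real.log (y t0) := by ring
    rw [this, Real.exp_log hpos]
  · have hAne : ∀ᶠ t in 𝓝 t0, A t ≠ 0 := hAan.continuousAt.eventually_ne hA0'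
    have hUt := h.mem_nhds ht
    filter_upwards [hAne, hUt] with t hAt htU
    obtain ⟨ct, hct, hyt⟩ := hy t htU
    have hu : b0 + (t - t0) • (0 : M) + conj (t - t0) • (-g0) =
        ∑ k, (β k - conj (t - t0) * γ k) • u k := by
      rw [hb0, hg0]
      simp only [sub_smul, Finset.sum_sub_distrib, smul_zero, add_zero, smul_neg, Finset.smul_sum,
        smul_smul]
      abel
    have hAe : A t = Q t (D (D η)) (b0 + (t - t0) • (0 : M) + conj (t - t0) • (-g0)) := by
      rw [hA]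
      simp only [smul_zero, add_zero, map_add, map_neg, smul_neg, B_smul_right, conj_conj]
      ring
    have hcs2 := cs_frame (h.herm t htU) (h.u_pos t htU) ct (fun k => β k - conj (t - t0) * γ k)
    rw [← B_proj hct, ← hu, ← hAe, ← hyt] at hcs2
    set den := (Q t (b0 + (t - t0) • (0 : M) + conj (t - t0) • (-g0))
      (b0 + (t - t0) • (0 : M) + conj (t - t0) • (-g0))).re with hden
    have hApos : 0 < ‖A t‖ := norm_pos_iff.2 hAt
    have hden_nonneg : 0 ≤ den := by
      rw [hden, hu]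
      exact nonneg_of_pos (h.u_pos t htU) _
    have hden_pos : 0 < den := by
      rcases hden_nonneg.eq_or_lt with h0 | h0
      · exfalso
        rw [← h0, mul_zero] at hcs2
        have := pow_pos hApos 2
        linarith
      · exact h0
    rw [Real.exp_sub, Real.exp_log hden_pos, div_le_iff₀ hden_pos]
    have : Real.exp (2 * Real.log ‖A t‖) = ‖A t‖ ^ 2 := by
      rw [mul_comm, Real.exp_mul, Real.exp_log hApos]
      norm_num
    rw [this]
    exact hcs2

/-! ### the support of `x` -/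

/-- If `x > 0` then `N > 0`. -/
theorem ConnData.N_pos (h : ConnData Q D D' U w u η) {t0 : ℂ} (ht : t0 ∈ U) {r : ℝ}
    (hr : IsX Q D w η t0 r) (hpos : 0 < r) : 0 < (Q t0 η η).re := by
  obtain ⟨c0, hc0⟩ := h.η_mem t0 ht
  have e0 : Q t0 η η = Q t0 (∑ i, c0 i • w i) (∑ i, c0 i • w i) := by
    have h1 : Q t0 η η = Q t0 (∑ i, c0 i • w i) η := by
      have := hc0 η
      rwa [B_sub_left, sub_eq_zero] at this
    rw [h1, h.herm t0 ht]
    have h2 : Q t0 η (∑ i, c0 i • w i) = Q t0 (∑ i, c0 i • w i) (∑ i, c0 i • w i) := by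
      have := hc0 (∑ i, c0 i • w i)
      rwa [B_sub_left, sub_eq_zero] at this
    rw [h2, ← h.herm t0 ht]
  by_contra hN
  push Not at hN
  have hc00 : c0 = 0 := by
    by_contra hne
    have := h.w_pos t0 ht c0 hne
    rw [e0] at hN
    linarith
  -- `η` is null at `t0`
  have hη0 : ∀ b, Q t0 η b = 0 := by
    intro b
    have := hc0 b
    rw [hc00] at this
    simpa using this
  -- coefficients of `η` near `t0`
  have hch : ∀ t ∈ U, ∃ c : Fin p → ℂ, ∀ b, Q t (η - ∑ i, c i • w i) b = 0 := h.η_mem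
  choose! c hc using hch
  obtain ⟨m, hm, hco⟩ := coercive (Q := Q) (e := w) (t0 := t0)
    (fun i j => h.cont ht (w i) (w j)) (h.w_pos t0 ht)
  obtain ⟨d, hd, hrd⟩ := hr
  have hp := h.perp_v ht hd
  set v := D η - ∑ k, d k • w k with hv
  -- first order smallness
  have small : ∀ a b, Q t0 a b = 0 → (fun τ : ℂ => Q (t0 + τ) a b) =O[𝓝 0] fun τ : ℂ => ‖τ‖ := by
    intro a b hab
    have h1 := (h.hasF ht a b).isBigO_sub
    have h2 : (fun τ : ℂ => Q (t0 + τ) a b) =O[𝓝 0] fun τ : ℂ => τ := by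
      have h3 := h1.comp_tendsto (tendsto_add_zero t0)
      refine h3.congr (fun τ => ?_) (fun τ => ?_)
      · simp [hab]
      · simp
    exact h2.norm_right
  have hU : ∀ᶠ τ in 𝓝 (0 : ℂ), t0 + τ ∈ U := (tendsto_add_zero t0).eventually (h.mem_nhds ht)
  have hco' := (tendsto_add_zero t0).eventually hco
  have hcO : (fun τ : ℂ => c (t0 + τ)) =O[𝓝 0] fun τ : ℂ => ‖τ‖ := by
    have h1 : (fun τ : ℂ => (1 / m) * ∑ i, ‖Q (t0 + τ) η (w i)‖) =O[𝓝 0] fun τ : ℂ => ‖τ‖ := by
      refine IsBigO.const_mul_left ?_ _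
      exact IsBigO.fun_sum fun i _ => (small η (w i) (hη0 _)).norm_left
    refine IsBigO.trans (IsBigO.of_bound 1 ?_) h1
    filter_upwards [hU, hco'] with τ h2 h3
    rw [one_mul]
    refine (proj_bound hm h3 (a := η) (c := c (t0 + τ)) fun i => hc _ h2 _).trans (le_abs_self _)
  have hηv : (fun τ : ℂ => Q (t0 + τ) η v) =O[𝓝 0] fun τ : ℂ => ‖τ‖ ^ 2 := by
    have h1 : (fun τ : ℂ => ∑ i, c (t0 + τ) i * Q (t0 + τ) (w i) v) =O[𝓝 0]
        fun τ : ℂ => ‖τ‖ ^ 2 := by
      refine IsBigO.fun_sum fun i _ => ?_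
      have h2 : (fun τ : ℂ => c (t0 + τ) i) =O[𝓝 0] fun τ : ℂ => ‖τ‖ := by
        refine IsBigO.trans (IsBigO.of_bound 1 (Eventually.of_forall fun τ => ?_)) hcO
        rw [one_mul]
        exact norm_le_pi_norm _ i
      have h3 := small (w i) v (by rw [h.herm t0 ht, hp.1 i, map_zero])
      refine (h2.mul h3).congr_right fun τ => ?_
      ring
    refine h1.congr' ?_ EventuallyEq.rfl
    filter_upwards [hU] with τ hτ
    have h4 := hc _ hτ v
    rw [B_sub_left, sub_eq_zero] at h4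
    rw [h4, B_sum_left]
  -- the derivative of `Q_t (η, v)` at `t0` vanishes
  have hder : HasFDerivAt (𝕜 := ℝ) (fun s => Q s η v) (wd 0 0) t0 := by
    have h4 : (wd 0 0 : ℂ →L[ℝ] ℂ) = 0 := by ext z; simp
    rw [h4, hasFDerivAt_iff_isLittleO_nhds_zero]
    refine (isLittleO_norm_pow_one hηv).congr_left fun τ => ?_
    rw [hη0]
    simp
  have h5 := (wd_inj ((h.hasF ht η v).unique hder)).1
  rw [hη0, add_zero] at h5
  have h6 : Q t0 (D η) v = Q t0 v v := by
    have : D η = v + ∑ k, d k • w k := by rw [hv]; abel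
    conv_lhs => rw [this]
    rw [B_add_left, h.w_perp ht hp, add_zero]
  rw [← h6, h5] at hrd
  simp at hrd
  linarith

theorem ConnData.supp_x (h : ConnData Q D D' U w u η) {t0 : ℂ} (ht : t0 ∈ U) {x y : ℂ → ℝ}
    (hx : ∀ t ∈ U, IsX Q D w η t (x t)) (hy : ∀ t ∈ U, IsY Q D u η t (y t))
    (hpos : 0 < x t0) : 0 < (Q t0 η η).re ∧ ∃ (g : ℂ → ℝ) (L : ℝ), HasLap g t0 L ∧
      x t0 / (Q t0 η η).re - y t0 / x t0 ≤ L ∧ Real.exp (g t0) = x t0 ∧
      ∀ᶠ z in 𝓝 t0, Real.exp (g z) ≤ x z := by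
  have hN := h.N_pos ht (hx t0 ht) hpos
  refine ⟨hN, ?_⟩
  set N0 := (Q t0 η η).re with hN0
  obtain ⟨β, hβ, hyβ⟩ := hy t0 ht
  obtain ⟨c, hc, hxc⟩ := hx t0 ht
  obtain ⟨cη, hcη⟩ := h.η_mem t0 ht
  have hp := h.perp_v ht hc
  set b0 : M := ∑ k, β k • u k with hb0
  set v : M := D η - ∑ k, c k • w k with hv
  obtain ⟨d, hd⟩ := exists_proj (h.w_pos t0 ht) (D v)
  set P1 : M := ∑ k, d k • w k with hP1
  set a2 : M := ((x t0 / N0 : ℝ) : ℂ) • η with ha2
  obtain ⟨bj, hjet⟩ := h.jet ht v (-P1) a2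
  have nv : Null Q U (D' v) := by
    rw [hv, map_sub, map_sum]
    simp only [map_smul]
    exact h.null_DDη.sub (Null.sum (fun i => h.null_w i) c)
  have nP1 : Null Q U (D' P1) := by
    rw [hP1, map_sum]
    simp only [map_smul]
    exact Null.sum (fun i => h.null_w i) d
  -- pairings of v with η
  have hvη : Q t0 v η = 0 := by
    rw [h.herm t0 ht]
    have h1 := hcη v
    rw [B_sub_left, sub_eq_zero] at h1
    rw [h1, h.w_perp ht hp, map_zero]
  have hηη : (Q t0 η η) = (N0 : ℂ) := by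
    apply Complex.ext
    · rw [ofReal_re]
    · rw [ofReal_im, im_self (h.herm t0 ht)]
  have hvv : Q t0 v v = ((-x t0 : ℝ) : ℂ) := by
    apply Complex.ext
    · rw [ofReal_re, hxc]; ring
    · rw [ofReal_im, im_self (h.herm t0 ht)]
  have hDηv : Q t0 (D η) v = Q t0 v v := by
    have : D η = v + ∑ k, c k • w k := by rw [hv]; abel
    conv_lhs => rw [this]
    rw [B_add_left, h.w_perp ht hp, add_zero]
  have hA1 : D v + -P1 = D v - P1 := by abel
  have hQva2 : Q t0 v (D' v + a2) = 0 := by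
    rw [map_add, h.null_right nv ht, zero_add, ha2, B_smul_right, hvη, mul_zero]
  have hQa2 : (Q t0 (D' v + a2) (D' v + a2)).re = x t0 ^ 2 / N0 := by
    have e1 : Q t0 (D' v + a2) (D' v + a2) = Q t0 a2 a2 := by
      rw [B_add_left, nv t0 ht, zero_add, map_add, h.null_right nv ht, zero_add]
    rw [e1, ha2, B_smul_right, B_smul_left, conj_ofReal, hηη]
    have : ((x t0 / N0 : ℝ) : ℂ) * (((x t0 / N0 : ℝ) : ℂ) * (N0 : ℂ)) =
      ((x t0 / N0 * (x t0 / N0 * N0) : ℝ) : ℂ) := by push_cast; ring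
    rw [this, ofReal_re]
    field_simp
  have hQ3 : (Q t0 (D (D' v) + D' (-P1) + D a2) v).re = - (x t0 ^ 2 / N0) := by
    rw [B_add_left, B_add_left, map_neg, (h.null_D nv).1 t0 ht, zero_add]
    have e1 : Q t0 (-D' P1) v = 0 := by
      rw [map_neg, LinearMap.neg_apply, nP1 t0 ht, neg_zero]
    rw [e1, zero_add, ha2, map_smul, B_smul_left, hDηv, hvv]
    have : ((x t0 / N0 : ℝ) : ℂ) * ((-x t0 : ℝ) : ℂ) = ((x t0 / N0 * (-x t0) : ℝ) : ℂ) := by
      push_cast; ring
    rw [this, ofReal_re]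
    field_simp
  rw [hQva2, add_zero, hQa2, hQ3, hA1] at hjet
  -- the barrier
  set A : ℂ → M := fun t => v + (t - t0) • (-P1) + conj (t - t0) • a2 with hA
  have hAt0 : A t0 = v := by rw [hA]; simp
  have hjn := hjet.neg
  have hg0 : 0 < -(Q t0 (A t0) (A t0)).re := by
    rw [hAt0, ← hxc]; exact hpos
  have hlog := (HasJet.log hjn hg0).hasLap
  refine ⟨fun t => Real.log (-(Q t (A t) (A t)).re), _, hlog, ?_, ?_, ?_⟩
  · -- the inequality
    have hval : -(Q t0 (v + (t0 - t0) • (-P1) + conj (t0 - t0) • a2)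
        (v + (t0 - t0) • (-P1) + conj (t0 - t0) • a2)).re = x t0 := by
      have := hAt0
      rw [hA] at this
      simp only at this
      rw [this, hxc]
    rw [hval]
    -- decomposition of A1 = D v - P1
    have hC : Perp Q w u t0 (D v - P1 - b0) := by
      constructor
      · intro i
        rw [B_sub_left, hd i, zero_sub, neg_eq_zero, hb0, B_sum_left]
        refine Finset.sum_eq_zero fun j _ => ?_
        rw [h.herm t0 ht, h.w_u t0 ht, map_zero, mul_zero]
      · intro j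
        have e1 : D v - P1 - b0 = (D (D η) - b0) - ∑ k, c k • D (w k) - P1 := by
          rw [hv, map_sub, map_sum]
          simp only [map_smul]
          abel
        rw [e1, B_sub_left, B_sub_left, hβ j, hP1, B_sum_left, B_sum_left]
        rw [Finset.sum_eq_zero fun i _ => by rw [h.dw_u t0 ht, mul_zero],
          Finset.sum_eq_zero fun i _ => by rw [h.w_u t0 ht, mul_zero]]
        simp
    set C1 := D v - P1 - b0 with hC1
    have hdec : D v - P1 = C1 + b0 := by rw [hC1]; abel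
    have hbv : Q t0 b0 v = 0 := by
      rw [h.herm t0 ht, B_perp_sum hp.2, map_zero]
    have hQA1v : Q t0 (D v - P1) v = Q t0 C1 v := by
      rw [hdec, B_add_left, hbv, add_zero]
    have hQA1 : (Q t0 (D v - P1) (D v - P1)).re = (Q t0 C1 C1).re + y t0 := by
      rw [hdec, B_add_left, map_add, map_add, B_perp_sum hC.2]
      have : Q t0 b0 C1 = 0 := by rw [h.herm t0 ht, B_perp_sum hC.2, map_zero]
      rw [this, add_zero, zero_add, add_re, ← hyβ]
    have hcs := h.cs_perp ht hC hp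
    rw [← hxc] at hcs
    rw [hQA1v, hQA1]
    have hn : ‖-(2 * Q t0 C1 v)‖ ^ 2 = 4 * ‖Q t0 C1 v‖ ^ 2 := by
      rw [norm_neg, norm_mul, mul_pow]; norm_num
    rw [hn]
    have hCneg := h.neg t0 ht _ hC.1 hC.2
    have k1 : 4 * ‖Q t0 C1 v‖ ^ 2 / (4 * x t0 ^ 2) ≤ -(Q t0 C1 C1).re / x t0 := by
      rw [div_le_div_iff₀ (by positivity) hpos]
      nlinarith
    have k2 : -((Q t0 C1 C1).re + y t0 + x t0 ^ 2 / N0 + 2 * -(x t0 ^ 2 / N0)) / x t0 =
        x t0 / N0 - y t0 / x t0 + -(Q t0 C1 C1).re / x t0 := by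
      field_simp
      ring
    rw [k2]
    linarith
  · show Real.exp (Real.log (-(Q t0 (A t0) (A t0)).re)) = x t0
    rw [Real.exp_log hg0, hAt0, hxc]
  · -- the barrier is below x
    have hcont : ContinuousAt (fun t => -(Q t (A t) (A t)).re) t0 := by
      have h1 : ∀ t, Q t (A t) (A t) = Q t v v + conj (t - t0) * Q t v (-P1) + (t - t0) * Q t v a2
          + (t - t0) * (Q t (-P1) v + conj (t - t0) * Q t (-P1) (-P1) + (t - t0) * Q t (-P1) a2)
          + conj (t - t0) * (Q t a2 v + conj (t - t0) * Q t a2 (-P1) + (t - t0) * Q t a2 a2) := by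
        intro t
        rw [hA]
        simp only [map_add, LinearMap.add_apply, B_smul_left, B_smul_right, conj_conj]
        ring
      have hcj : ContinuousAt (fun t : ℂ => conj (t - t0)) t0 := by fun_prop
      have hid : ContinuousAt (fun t : ℂ => t - t0) t0 := by fun_prop
      have hQ := fun a b => h.cont ht a b
      refine (Complex.continuous_re.continuousAt.comp (f := fun t => Q t (A t) (A t)) ?_).neg
      simp only [h1]
      exact (((hQ _ _).add (hcj.mul (hQ _ _))).add (hid.mul (hQ _ _))).add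
        (hid.mul (((hQ _ _).add (hcj.mul (hQ _ _))).add (hid.mul (hQ _ _)))) |>.add
        (hcj.mul (((hQ _ _).add (hcj.mul (hQ _ _))).add (hid.mul (hQ _ _))))
    have hpos' : ∀ᶠ t in 𝓝 t0, 0 < -(Q t (A t) (A t)).re := hcont.eventually (lt_mem_nhds hg0)
    filter_upwards [hpos', h.mem_nhds ht] with t h1 h2
    rw [Real.exp_log h1]
    obtain ⟨ct, hct, hxt⟩ := hx t h2
    obtain ⟨ce, hce⟩ := h.η_mem t h2
    have hpt := h.perp_v h2 hct
    set vt : M := D η - ∑ k, ct k • w k with hvt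
    set κ : ℂ := conj (t - t0) * ((x t0 / N0 : ℝ) : ℂ) with hκ
    set f : Fin p → ℂ := fun k => ct k - c k - (t - t0) * d k + κ * ce k with hf
    -- A t = vt + Σ f w + κ (η - Σ ce w)
    have hdecA : A t = vt + (∑ k, f k • w k) + κ • (η - ∑ k, ce k • w k) := by
      rw [hA, hvt, hf, hv, hP1, ha2]
      simp only [add_smul, sub_smul, Finset.sum_add_distrib, Finset.sum_sub_distrib, smul_sub,
        smul_neg, Finset.smul_sum, smul_smul, hκ]
      abel
    set nη := η - ∑ k, ce k • w k with hnη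
    have hn1 : ∀ b, Q t nη b = 0 := hce
    have hn2 : ∀ b, Q t b nη = 0 := fun b => by rw [h.herm t h2, hn1, map_zero]
    have hQA : (Q t (A t) (A t)).re = (Q t vt vt).re + (Q t (∑ k, f k • w k) (∑ k, f k • w k)).re := by
      rw [hdecA]
      simp only [map_add, LinearMap.add_apply, B_smul_left, B_smul_right, hn1, hn2, mul_zero,
        add_zero]
      rw [B_perp_sum hpt.1, h.w_perp h2 hpt, add_zero, zero_add, add_re]
    rw [hQA, hxt]
    have := nonneg_of_pos (h.w_pos t h2) f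
    linarith

/-! ### continuity -/

theorem ConnData.cont_x (h : ConnData Q D D' U w u η) {t0 : ℂ} (ht : t0 ∈ U) {x : ℂ → ℝ}
    (hx : ∀ t ∈ U, IsX Q D w η t (x t)) : ContinuousAt x t0 := by
  choose! c hc hxc using hx
  have h1 : Tendsto c (𝓝 t0) (𝓝 (c t0)) :=
    proj_tendsto (a := D η) (fun i j => h.cont ht (w i) (w j)) (fun i => h.cont ht _ _)
      (h.w_pos t0 ht) (by filter_upwards [h.mem_nhds ht] with t ht' using hc t ht')
  have h2 : ContinuousAt (fun t => -(Q t (D η) (D η) - ∑ k, c t k * Q t (w k) (D η)).re) t0 := by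
    refine ContinuousAt.neg (Complex.continuous_re.continuousAt.comp
      (f := fun t => Q t (D η) (D η) - ∑ k, c t k * Q t (w k) (D η)) ?_)
    refine (h.cont ht _ _).sub (tendsto_finsetSum _ fun k _ => ?_)
    exact (((continuous_apply k).tendsto _).comp h1).mul (h.cont ht (w k) (D η)).tendsto
  refine h2.congr_of_eventuallyEq ?_
  filter_upwards [h.mem_nhds ht] with t ht'
  rw [hxc t ht']
  have hp := h.perp_v ht' (hc t ht')
  congr 2
  have e1 : Q t (D η - ∑ k, c t k • w k) (D η - ∑ k, c t k • w k) =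
      Q t (D η - ∑ k, c t k • w k) (D η) := by
    rw [map_sub, B_perp_sum hp.1, sub_zero]
  rw [e1, B_sub_left, B_sum_left]

theorem ConnData.cont_y (h : ConnData Q D D' U w u η) {t0 : ℂ} (ht : t0 ∈ U) {y : ℂ → ℝ}
    (hy : ∀ t ∈ U, IsY Q D u η t (y t)) : ContinuousAt y t0 := by
  choose! c hc hyc using hy
  have h1 : Tendsto c (𝓝 t0) (𝓝 (c t0)) :=
    proj_tendsto (a := D (D η)) (fun i j => h.cont ht (u i) (u j)) (fun i => h.cont ht _ _)
      (h.u_pos t0 ht) (by filter_upwards [h.mem_nhds ht] with t ht' using hc t ht')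
  have h2 : ContinuousAt (fun t => (∑ k, conj (c t k) * Q t (D (D η)) (u k)).re) t0 := by
    refine Complex.continuous_re.continuousAt.comp
      (f := fun t => ∑ k, conj (c t k) * Q t (D (D η)) (u k)) ?_
    refine tendsto_finsetSum _ fun k _ => ?_
    exact ((Complex.continuous_conj.tendsto _).comp (((continuous_apply k).tendsto _).comp h1)).mul
      (h.cont ht (D (D η)) (u k)).tendsto
  refine h2.congr_of_eventuallyEq ?_
  filter_upwards [h.mem_nhds ht] with t ht'
  rw [hyc t ht', ← B_proj (hc t ht'), B_sum_right]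

end Vale.Agent.P298.H265
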