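import Vale.Agent.P298.H265.Alg

/-!
P298, block S1-ABS (helper265): second order expansions from Wirtinger derivatives.
-/

namespace Vale.Agent.P298.H265

open Complex ComplexConjugate Metric Set Filter Topology Asymptotics

theorem norm_wd_le (a b : ℂ) : ‖wd a b‖ ≤ ‖a‖ + ‖b‖ := by
  refine ContinuousLinearMap.opNorm_le_bound _ (by positivity) fun τ => ?_
  rw [wd_apply]
  refine (norm_add_le _ _).trans ?_
  rw [norm_mul, norm_mul, Complex.norm_conj, add_mul]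

theorem wd_eq_zero {a b : ℂ} (h : wd a b = 0) : a = 0 ∧ b = 0 := by
  have h1 : wd a b 1 = 0 := by rw [h]; rfl
  have h2 : wd a b I = 0 := by rw [h]; rfl
  rw [wd_apply] at h1 h2
  simp only [map_one, mul_one, conj_I, mul_neg] at h1 h2
  have h3 : (a - b) * I = 0 := by linear_combination h2
  have h4 : a - b = 0 := by
    rcases mul_eq_zero.1 h3 with h | h
    · exact h
    · exact absurd h I_ne_zero
  constructor
  · linear_combination (h1 + h4) / 2
  · linear_combination (h1 - h4) / 2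

theorem wd_inj {a b c d : ℂ} (h : wd a b = wd c d) : a = c ∧ b = d := by
  have : wd (a - c) (b - d) = 0 := by
    ext τ
    rw [wd_apply]
    have h1 : wd a b τ = wd c d τ := by rw [h]
    rw [wd_apply, wd_apply] at h1
    simp only [ContinuousLinearMap.zero_apply]
    linear_combination h1
  obtain ⟨h1, h2⟩ := wd_eq_zero this
  exact ⟨sub_eq_zero.1 h1, sub_eq_zero.1 h2⟩

theorem cpow_isBigO {k : ℕ} {f : ℂ → ℂ} (hf : ∀ τ, ‖f τ‖ = ‖τ‖ ^ k) (a : ℂ) :
    (fun τ => a * f τ) =O[𝓝 0] fun τ : ℂ => ‖τ‖ ^ k := by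
  refine IsBigO.of_bound ‖a‖ (Eventually.of_forall fun τ => ?_)
  rw [norm_mul, hf, Real.norm_eq_abs, abs_of_nonneg (by positivity)]

theorem isLittleO_norm_pow_one {f : ℂ → ℂ} (h : f =O[𝓝 0] fun τ : ℂ => ‖τ‖ ^ 2) :
    f =o[𝓝 0] fun τ : ℂ => τ := by
  have : (fun τ : ℂ => ‖τ‖ ^ 2) =o[𝓝 0] fun τ : ℂ => ‖τ‖ ^ 1 := pow_isLittleO (by norm_num)
  simp only [pow_one] at this
  exact h.trans_isLittleO (this.trans_isBigO (isBigO_refl (fun τ : ℂ => τ) _).norm_left)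

theorem hasFDerivAt_poly (P R P1 k R2 τ : ℂ) :
    HasFDerivAt (𝕜 := ℝ) (fun s : ℂ => P * s + R * conj s + P1 * s ^ 2 / 2 + k * (s * conj s) +
      R2 * (conj s) ^ 2 / 2) (wd (P + P1 * τ + k * conj τ) (R + k * τ + R2 * conj τ)) τ := by
  rw [hasFDerivAt_iff_isLittleO_nhds_zero]
  have h1 := cpow_isBigO (k := 2) (f := fun s : ℂ => s ^ 2) (fun s => by simp) (P1 / 2)
  have h2 := cpow_isBigO (k := 2) (f := fun s : ℂ => s * conj s) (fun s => by
    rw [norm_mul, Complex.norm_conj]; ring) k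
  have h3 := cpow_isBigO (k := 2) (f := fun s : ℂ => (conj s) ^ 2) (fun s => by simp) (R2 / 2)
  refine (isLittleO_norm_pow_one ((h1.add h2).add h3)).congr_left fun s => ?_
  rw [wd_apply]
  simp only [map_add]
  ring

/-- Second order Taylor formula (Peano form) from Wirtinger derivatives. -/
theorem taylor_wirt {φ P R : ℂ → ℂ} {t0 P1 k R2 : ℂ}
    (hφ : ∀ᶠ t in 𝓝 t0, HasFDerivAt (𝕜 := ℝ) φ (wd (P t) (R t)) t)
    (hP : HasFDerivAt (𝕜 := ℝ) P (wd P1 k) t0) (hR : HasFDerivAt (𝕜 := ℝ) R (wd k R2) t0) :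
    (fun τ : ℂ => φ (t0 + τ) - (φ t0 + P t0 * τ + R t0 * conj τ + P1 * τ ^ 2 / 2 +
      k * (τ * conj τ) + R2 * (conj τ) ^ 2 / 2)) =o[𝓝 0] fun τ => ‖τ‖ ^ 2 := by
  rw [isLittleO_iff]
  intro ε hε
  have h1 := (hasFDerivAt_iff_isLittleO_nhds_zero.1 hP).def (c := ε / 2) (by positivity)
  have h2 := (hasFDerivAt_iff_isLittleO_nhds_zero.1 hR).def (c := ε / 2) (by positivity)
  have h3 := (tendsto_add_zero t0).eventually hφ
  obtain ⟨δ, hδ, h4⟩ := Metric.eventually_nhds_iff.1 ((h1.and h2).and h3)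
  filter_upwards [Metric.ball_mem_nhds (0 : ℂ) hδ] with τ hτ
  rw [mem_ball_zero_iff] at hτ
  set ψ : ℂ → ℂ := fun s => φ (t0 + s) - (φ t0 + P t0 * s + R t0 * conj s + P1 * s ^ 2 / 2 +
      k * (s * conj s) + R2 * (conj s) ^ 2 / 2) with hψ
  have hψ0 : ψ 0 = 0 := by rw [hψ]; simp
  have hd : ∀ s ∈ closedBall (0 : ℂ) ‖τ‖, HasFDerivWithinAt (𝕜 := ℝ) ψ
      (wd (P (t0 + s) - P t0 - (P1 * s + k * conj s)) (R (t0 + s) - R t0 - (k * s + R2 * conj s)))
      (closedBall (0 : ℂ) ‖τ‖) s := by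
    intro s hs
    rw [mem_closedBall_zero_iff] at hs
    have h5 := (h4 (y := s) (by rw [dist_zero_right]; linarith)).2
    have h6 : HasFDerivAt (𝕜 := ℝ) (fun s => φ (t0 + s)) (wd (P (t0 + s)) (R (t0 + s))) s := by
      have h9 : HasFDerivAt (𝕜 := ℝ) (fun z : ℂ => t0 + z) (ContinuousLinearMap.id ℝ ℂ) s :=
        (hasFDerivAt_id s).const_add t0
      have h10 := HasFDerivAt.comp s (f := fun z : ℂ => t0 + z) h5 h9
      rw [ContinuousLinearMap.comp_id] at h10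
      exact h10
    have h7 := hasFDerivAt_poly (P t0) (R t0) P1 k R2 s
    have h8 := (h6.sub (h7.const_add (φ t0))).hasFDerivWithinAt (s := closedBall (0 : ℂ) ‖τ‖)
    refine (h8.congr_fderiv ?_).congr_of_eventuallyEq (Eventually.of_forall fun z => ?_) ?_
    · ext z
      simp only [ContinuousLinearMap.sub_apply, wd_apply]
      ring
    · rw [hψ]; simp only [Pi.sub_apply]; ring
    · rw [hψ]; simp only [Pi.sub_apply]; ring
  have hb : ∀ s ∈ closedBall (0 : ℂ) ‖τ‖, ‖wd (P (t0 + s) - P t0 - (P1 * s + k * conj s))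
      (R (t0 + s) - R t0 - (k * s + R2 * conj s))‖ ≤ ε * ‖τ‖ := by
    intro s hs
    rw [mem_closedBall_zero_iff] at hs
    have h5 := (h4 (y := s) (by rw [dist_zero_right]; linarith)).1
    have h6 := h5.1
    have h7 := h5.2
    rw [wd_apply] at h6 h7
    refine (norm_wd_le _ _).trans ?_
    calc _ ≤ ε / 2 * ‖s‖ + ε / 2 * ‖s‖ := add_le_add h6 h7
      _ = ε * ‖s‖ := by ring
      _ ≤ ε * ‖τ‖ := by gcongr
  have key := (convex_closedBall (0 : ℂ) ‖τ‖).norm_image_sub_le_of_norm_hasFDerivWithin_le hd hb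
    (x := 0) (y := τ) (by simp) (by simp)
  rw [hψ0, sub_zero, sub_zero] at key
  rw [Real.norm_eq_abs, abs_of_nonneg (by positivity : (0 : ℝ) ≤ ‖τ‖ ^ 2)]
  calc ‖ψ τ‖ ≤ ε * ‖τ‖ * ‖τ‖ := key
    _ = ε * ‖τ‖ ^ 2 := by ring

theorem hasDerivAt_of_wd {φ : ℂ → ℂ} {P t : ℂ} (h : HasFDerivAt (𝕜 := ℝ) φ (wd P 0) t) :
    HasDerivAt φ P t := by
  rw [hasDerivAt_iff_isLittleO_nhds_zero]
  refine (hasFDerivAt_iff_isLittleO_nhds_zero.1 h).congr_left fun τ => ?_
  rw [wd_apply, smul_eq_mul]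
  ring

end Vale.Agent.P298.H265
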